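import Vale.Agent.P184.H11.VrAb

/-!
# Finite systems with a cocycle: virtual retracts
-/

namespace Vale.Agent.P184.H11.VrSys

universe u v w

variable {G : Type v} {H : Type u} [Group G] [Group H]

/-- **Virtual retracts.**  `ρ` is a homomorphism from a subgroup `L` of finite index to `H`, and
every coset of `L` has a representative `y` with `ρ (y⁻¹ c y) = c` for all `c` in `H`. -/
theorem sys_retract (f : H →* G) (L : Subgroup G) [L.FiniteIndex] (ρ : L →* H)
    (hr : ∀ x : G, ∃ l ∈ L, ∀ c, ∃ h : (x * l)⁻¹ * f c * (x * l) ∈ L, ρ ⟨_, h⟩ = c) :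
    ∃ (F : Type v) (_ : Finite F) (_ : Nonempty F) (_ : MulAction G F) (β : G → F → H),
      (∀ l m u, β (l * m) u = β l (m • u) * β m u) ∧
      ∀ c u, f c • u = u ∧ β (f c) u = c := by
  classical
  have hex : ∀ u : G ⧸ L, ∃ y : G, QuotientGroup.mk y = u ∧
      ∀ c, ∃ h : y⁻¹ * f c * y ∈ L, ρ ⟨_, h⟩ = c := by
    intro u
    obtain ⟨x, rfl⟩ := QuotientGroup.mk_surjective u
    obtain ⟨l, hl, h3⟩ := hr x
    exact ⟨x * l, QuotientGroup.mk_mul_of_mem x hl, h3⟩
  choose r hr1 hr2 using hex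
  have hmem : ∀ (g : G) (u : G ⧸ L), (r (g • u))⁻¹ * (g * r u) ∈ L := by
    intro g u
    rw [← QuotientGroup.eq, hr1]
    have h3 : (QuotientGroup.mk (g * r u) : G ⧸ L) = g • QuotientGroup.mk (r u) := rfl
    rw [h3, hr1]
  refine ⟨G ⧸ L, inferInstance, inferInstance, inferInstance, fun g u => ρ ⟨_, hmem g u⟩,
    ?_, ?_⟩
  · intro l m u
    rw [← map_mul]
    refine congrArg ρ (Subtype.ext ?_)
    change (r ((l * m) • u))⁻¹ * (l * m * r u) =
      (r (l • m • u))⁻¹ * (l * r (m • u)) * ((r (m • u))⁻¹ * (m * r u))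
    rw [mul_smul]
    group
  · intro c u
    obtain ⟨h, h3⟩ := hr2 u c
    have h4 : f c • u = u := by
      conv_lhs => rw [← hr1 u]
      conv_rhs => rw [← hr1 u]
      have h5 : (f c • QuotientGroup.mk (r u) : G ⧸ L) = QuotientGroup.mk (f c * r u) := rfl
      rw [h5, eq_comm, QuotientGroup.eq, ← mul_assoc]
      exact h
    refine ⟨h4, Eq.trans (congrArg ρ (Subtype.ext ?_)) h3⟩
    change (r (f c • u))⁻¹ * (f c * r u) = (r u)⁻¹ * f c * r u
    rw [h4, mul_assoc]

/-- **Groups detected by a finitely generated abelian quotient.** -/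
theorem sys_abelian (f : H →* G) {K : Type w} [AddCommGroup K] [Module.Finite ℤ K]
    (χ : G →* Multiplicative K) (hχ : Function.Injective (χ.comp f)) :
    ∃ (F : Type v) (_ : Finite F) (_ : Nonempty F) (_ : MulAction G F) (β : G → F → H),
      (∀ l m u, β (l * m) u = β l (m • u) * β m u) ∧
      ∀ c u, f c • u = u ∧ β (f c) u = c := by
  classical
  let C : Submodule ℤ K := AddSubgroup.toIntSubmodule
    (Subgroup.toAddSubgroup' (χ.comp (f)).range)
  have hC : ∀ c, Multiplicative.toAdd (χ (f c)) ∈ C := fun c => ⟨c, rfl⟩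
  obtain ⟨D, hD1, hD2⟩ := VrAb.exists_retr C
  have hinv : ∀ x ∈ C, ∃ c, Multiplicative.toAdd (χ (f c)) = x := by
    rintro x ⟨c, hc⟩
    exact ⟨c, hc⟩
  choose! ι hι using hinv
  let L : Subgroup G :=
    { carrier := {g | D (Multiplicative.toAdd (χ g)) ∈ C}
      one_mem' := by
        change D (Multiplicative.toAdd (χ 1)) ∈ C
        rw [map_one, toAdd_one, map_zero]
        exact C.zero_mem
      mul_mem' := by
        intro a b ha hb
        change D (Multiplicative.toAdd (χ (a * b))) ∈ C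
        rw [map_mul, toAdd_mul, map_add]
        exact C.add_mem ha hb
      inv_mem' := by
        intro a ha
        change D (Multiplicative.toAdd (χ a⁻¹)) ∈ C
        rw [map_inv, toAdd_inv, map_neg]
        exact C.neg_mem ha }
  have hL : ∀ g, g ∈ L ↔ D (Multiplicative.toAdd (χ g)) ∈ C := fun g => Iff.rfl
  let ψ : G →* Multiplicative (K ⧸ C) :=
    (AddMonoidHom.toMultiplicative ((C.mkQ ∘ₗ D).toAddMonoidHom)).comp χ
  have hψ : ∀ g, ψ g = Multiplicative.ofAdd (C.mkQ (D (Multiplicative.toAdd (χ g)))) :=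
    fun g => rfl
  have hfin : Finite ψ.range := by
    have h3 : ∀ y : ψ.range, Multiplicative.toAdd y.1 ∈ LinearMap.range (C.mkQ ∘ₗ D) := by
      rintro ⟨_, g, rfl⟩
      exact ⟨Multiplicative.toAdd (χ g), rfl⟩
    refine Finite.of_injective (fun y : ψ.range =>
      (⟨Multiplicative.toAdd y.1, h3 y⟩ : LinearMap.range (C.mkQ ∘ₗ D))) ?_
    intro y y' h
    exact Subtype.ext (congrArg (fun z : LinearMap.range (C.mkQ ∘ₗ D) => z.1) h)
  have hLf : L = ψ.ker := by
    ext g
    rw [hL, MonoidHom.mem_ker, hψ]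
    constructor
    · intro h
      rw [(Submodule.Quotient.mk_eq_zero C).2 h |> fun h' => (h' : C.mkQ _ = 0)]
      rfl
    · intro h
      exact (Submodule.Quotient.mk_eq_zero C).1 (congrArg Multiplicative.toAdd h)
  have : L.FiniteIndex := by
    rw [hLf]
    exact Subgroup.finiteIndex_ker ψ
  have hinj : ∀ c c' : H, Multiplicative.toAdd (χ (f c)) =
      Multiplicative.toAdd (χ (f c')) → c = c' := fun c c' h => hχ h
  have hι' : ∀ g, g ∈ L → Multiplicative.toAdd (χ (f (ι (D (Multiplicative.toAdd (χ g)))))) =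
      D (Multiplicative.toAdd (χ g)) := fun g hg => hι _ hg
  let ρ : L →* H :=
    { toFun := fun g => ι (D (Multiplicative.toAdd (χ g)))
      map_one' := by
        apply hinj
        rw [hι' _ (1 : L).2, map_one, map_one, Subgroup.coe_one, map_one, toAdd_one, map_zero]
      map_mul' := by
        intro a b
        apply hinj
        rw [hι' _ (a * b).2, map_mul, map_mul, toAdd_mul, hι' _ a.2, hι' _ b.2, Subgroup.coe_mul,
          map_mul, toAdd_mul, map_add] }
  have hρ : ∀ (g : G) (hg : g ∈ L) (c : H),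
      Multiplicative.toAdd (χ g) = Multiplicative.toAdd (χ (f c)) → ρ ⟨g, hg⟩ = c := by
    intro g hg c h
    apply hinj
    change Multiplicative.toAdd (χ (f (ι (D (Multiplicative.toAdd (χ g)))))) = _
    rw [hι' _ hg, h, hD1 _ (hC c)]
  refine sys_retract f L ρ ?_
  intro x
  refine ⟨1, L.one_mem, fun c => ?_⟩
  have h3 : χ ((x * 1)⁻¹ * f c * (x * 1)) = χ (f c) := by
    rw [mul_one, map_mul, map_mul, map_inv, mul_comm (χ x)⁻¹, inv_mul_cancel_right]
  have h4 : (x * 1)⁻¹ * f c * (x * 1) ∈ L := by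
    rw [hL, h3, hD1 _ (hC c)]
    exact hC c
  exact ⟨h4, hρ _ h4 c (by rw [h3])⟩

end Vale.Agent.P184.H11.VrSys
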