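import Vale.Agent.P184.H856.VRAm
import Vale.Agent.P184.H11.VrSys

/-!
# P184: amalgams over a group which abelian quotients of all factors but one detect
-/

namespace Vale.Agent.P184.H11.AmAb

open Vale.Agent.P184 Monoid Monoid.PushoutI

universe u v w x

/-- **Amalgams over abelian groups.**  Every factor but one has a homomorphism to a finitely
generated abelian group which is injective on the base group. -/
theorem amalgam_abelian {I : Type u} {G : I → Type v} {H : Type w} [∀ i, Group (G i)] [Group H]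
    (φ : ∀ i, H →* G i) (hφ : ∀ i, Function.Injective (φ i)) (j : I)
    (hV : ∀ i, i ≠ j → ∃ (K : Type x) (_ : AddCommGroup K) (_ : Module.Finite ℤ K)
      (χ : G i →* Multiplicative K), Function.Injective (χ.comp (φ i)))
    (h : ∀ i, L1Bass (G i)) : L1Bass (PushoutI φ) := by
  refine H856.amalgam_vr φ hφ j (fun i hi => ?_) h
  obtain ⟨K, _, _, χ, hχ⟩ := hV i hi
  exact VrSys.sys_abelian (φ i) χ hχ

/-- **Amalgams over virtual retracts** of all factors but one. -/
theorem amalgam_vretract {I : Type u} {G : I → Type v} {H : Type w} [∀ i, Group (G i)] [Group H]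
    (φ : ∀ i, H →* G i) (hφ : ∀ i, Function.Injective (φ i)) (j : I)
    (hV : ∀ i, i ≠ j → ∃ (L : Subgroup (G i)) (_ : L.FiniteIndex) (ρ : L →* H),
      ∀ x : G i, ∃ l ∈ L, ∀ c, ∃ h : (x * l)⁻¹ * φ i c * (x * l) ∈ L, ρ ⟨_, h⟩ = c)
    (h : ∀ i, L1Bass (G i)) : L1Bass (PushoutI φ) := by
  refine H856.amalgam_vr φ hφ j (fun i hi => ?_) h
  obtain ⟨L, _, ρ, hr⟩ := hV i hi
  exact VrSys.sys_retract (φ i) L ρ hr

end Vale.Agent.P184.H11.AmAb
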