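import Vale.Agent.P184.H290.Tree4

/-!
# P184: groups acting on trees with finite edge stabilizers, any number of orbits
-/

namespace Vale.Agent.P184.H11.TreeRed

open SimpleGraph Vale.Agent.P184 Vale.Agent.P184.H290 Vale.Agent.P184.H290.Tree

universe u v

theorem l1Bass_equiv {P Q : Type*} [Group P] [Group Q] (ι : Q ≃* P) (h : L1Bass P) : L1Bass Q := by
  refine l1Bass_of_inj ι.toMonoidHom ι.injective ∅ Set.finite_empty (fun C hC => hC.elim) ?_ h
  intro x y _ hxy
  obtain ⟨c, hc⟩ := isConj_iff.1 hxy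
  refine isConj_iff.2 ⟨ι.symm c, ι.injective ?_⟩
  rw [map_mul, map_mul, map_inv, MulEquiv.apply_symm_apply]
  exact hc

/-- lifting to a subgroup containing the finite set -/
theorem liftsTo_sub {G : Type u} [Group G] (S : Finset G) (H : Subgroup G) (hS : ∀ x ∈ S, x ∈ H) :
    ∃ s : G → H, LiftsTo S H.subtype s := by
  classical
  refine ⟨fun g => if h : g ∈ H then ⟨g, h⟩ else 1, ?_, ?_⟩
  · intro x hx
    have h := hS x hx
    simp [h]
  · intro x hx y hy _
    have h1 := hS x hx
    have h2 := hS y hy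
    have h3 := Subgroup.mul_mem _ h1 h2
    simp [h1, h2, h3]

section

variable {G : Type u} {V : Type v} [Group G] [MulAction G V]

/-- the orbits of the points of `K` under `H` -/
def orb (H : Subgroup G) (K : Finset V) : SubMulAction H V where
  carrier := {v | ∃ h : H, h • v ∈ K}
  smul_mem' := by
    rintro g v ⟨h, hh⟩
    exact ⟨h * g⁻¹, by rwa [mul_smul, inv_smul_smul]⟩

/-- the union of the translates of the part of the tree over `K` -/
def gr (T : SimpleGraph V) (H : Subgroup G) (K : Finset V) : SimpleGraph (orb H K) where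
  Adj x y := T.Adj x y ∧ ∃ h : H, h • (x : V) ∈ K ∧ h • (y : V) ∈ K
  symm := ⟨fun _ _ ⟨h1, h, h2, h3⟩ => ⟨h1.symm, h, h3, h2⟩⟩
  loopless := ⟨fun _ ⟨h1, _⟩ => T.loopless.irrefl _ h1⟩

variable {T : SimpleGraph V} {H : Subgroup G} {K : Finset V}

theorem gr_smul (hadj : ∀ (g : G) u v, T.Adj u v → T.Adj (g • u) (g • v)) (g : H)
    (x y : orb H K) (h : (gr T H K).Adj x y) : (gr T H K).Adj (g • x) (g • y) := by
  obtain ⟨h1, h, h2, h3⟩ := h
  refine ⟨hadj (g : G) _ _ h1, h * g⁻¹, ?_, ?_⟩
  · rw [SubMulAction.val_smul, mul_smul, inv_smul_smul]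
    exact h2
  · rw [SubMulAction.val_smul, mul_smul, inv_smul_smul]
    exact h3

theorem gr_acyclic (hT : T.IsAcyclic) : (gr T H K).IsAcyclic :=
  hT.comap (⟨Subtype.val, fun {_ _} h => h.1⟩ : gr T H K →g T) Subtype.val_injective

theorem mem_orb {w : V} (hw : w ∈ K) : w ∈ orb H K := ⟨1, by rwa [one_smul]⟩

theorem reach_walk {a b : V} (p : T.Walk a b) (hp : ∀ w ∈ p.support, w ∈ K) :
    ∀ w (hw : w ∈ p.support), (gr T H K).Reachable
      ⟨a, mem_orb (hp a p.start_mem_support)⟩ ⟨w, mem_orb (hp w hw)⟩ := by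
  induction p with
  | nil =>
    intro w hw
    rw [Walk.support_nil, List.mem_singleton] at hw
    subst hw
    exact Reachable.refl _
  | cons h q ih =>
    rename_i a c b
    intro w hw
    have hq : ∀ w ∈ q.support, w ∈ K := fun w hw => hp w (by
      rw [Walk.support_cons]
      exact List.mem_cons_of_mem _ hw)
    have ha : a ∈ K := hp a (Walk.start_mem_support _)
    have hc : c ∈ K := hq c q.start_mem_support
    have hw2 := hw
    rw [Walk.support_cons, List.mem_cons] at hw2
    rcases hw2 with rfl | hw2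
    · exact Reachable.refl _
    · have h1 : (gr T H K).Adj ⟨a, mem_orb ha⟩ ⟨c, mem_orb hc⟩ :=
        ⟨h, 1, by rwa [one_smul], by rwa [one_smul]⟩
      exact h1.reachable.trans (ih hq w hw2)

theorem reach_smul (hadj : ∀ (g : G) u v, T.Adj u v → T.Adj (g • u) (g • v)) (g : H)
    {x y : orb H K} (h : (gr T H K).Reachable x y) : (gr T H K).Reachable (g • x) (g • y) := by
  obtain ⟨p⟩ := h
  exact ⟨p.map (⟨fun x => g • x, fun {a b} h => gr_smul hadj g a b h⟩ : gr T H K →g gr T H K)⟩

end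

/-- **Groups acting on trees with finite edge stabilizers**, any number of orbits. -/
theorem treeAll {G : Type u} {V : Type v} [Group G] [MulAction G V] (T : SimpleGraph V)
    (hT : T.IsTree) (hadj : ∀ (g : G) u v, T.Adj u v → T.Adj (g • u) (g • v))
    (hinv : ∀ (g : G) v, T.Adj v (g • v) → g • g • v ≠ v)
    (hfin : ∀ u v, T.Adj u v →
      Finite (MulAction.stabilizer G u ⊓ MulAction.stabilizer G v : Subgroup G))
    (hQ : RowQ2.{u, u, u}) (h : ∀ v : V, L1Bass (MulAction.stabilizer G v)) : L1Bass G := by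
  classical
  obtain ⟨v₀⟩ := hT.connected.nonempty
  refine l1Bass_of_local.{u, u} fun S => ?_
  choose p hp using fun g : G => hT.connected.exists_walk_length_eq_dist v₀ (g • v₀)
  let K : Finset V := insert v₀ (S.biUnion fun g => (p g).support.toFinset)
  let H : Subgroup G := Subgroup.closure ((S : Set G) ∪ ⋃ k ∈ K, (MulAction.stabilizer G k : Set G))
  have hS : ∀ x ∈ S, x ∈ H := fun x hx => Subgroup.subset_closure (Or.inl hx)
  have hst : ∀ k ∈ K, MulAction.stabilizer G k ≤ H := fun k hk g hg =>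
    Subgroup.subset_closure (Or.inr (Set.mem_iUnion₂.2 ⟨k, hk, hg⟩))
  have hv₀ : v₀ ∈ K := Finset.mem_insert_self _ _
  obtain ⟨s, hs⟩ := liftsTo_sub S H hS
  refine ⟨H, inferInstance, H.subtype, s, hs, ?_⟩
  -- reachability
  let r₀ : orb H K := ⟨v₀, mem_orb hv₀⟩
  have hsup : ∀ g ∈ S, ∀ w ∈ (p g).support, w ∈ K := fun g hg w hw =>
    Finset.mem_insert_of_mem (Finset.mem_biUnion.2 ⟨g, hg, List.mem_toFinset.2 hw⟩)
  have hK1 : ∀ k (hk : k ∈ K), (gr T H K).Reachable r₀ ⟨k, mem_orb hk⟩ := by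
    intro k hk
    rcases Finset.mem_insert.1 hk with rfl | hk2
    · exact Reachable.refl _
    · obtain ⟨g, hg, hk3⟩ := Finset.mem_biUnion.1 hk2
      exact reach_walk (p g) (hsup g hg) k (List.mem_toFinset.1 hk3)
  have hH : ∀ g (hg : g ∈ H), (gr T H K).Reachable r₀ ((⟨g, hg⟩ : H) • r₀) := by
    intro g hg
    induction hg using Subgroup.closure_induction with
    | mem g hg =>
      rcases hg with hg | hg
      · have h1 : g • v₀ ∈ K := hsup g hg _ (Walk.end_mem_support _)
        exact hK1 _ h1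
      · obtain ⟨k, hk, hg2⟩ := Set.mem_iUnion₂.1 hg
        have h1 := hK1 k hk
        have h2 := reach_smul hadj (⟨g, hst k hk hg2⟩ : H) h1
        have h3 : (⟨g, hst k hk hg2⟩ : H) • (⟨k, mem_orb hk⟩ : orb H K) = ⟨k, mem_orb hk⟩ :=
          Subtype.ext hg2
        rw [h3] at h2
        exact h1.trans h2.symm
    | one =>
      have h1 : (⟨1, H.one_mem⟩ : H) • r₀ = r₀ := one_smul _ _
      rw [h1]
    | mul x y hx hy ihx ihy =>
      have h1 := reach_smul hadj (⟨x, hx⟩ : H) ihy
      rw [← mul_smul] at h1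
      exact ihx.trans h1
    | inv x hx ih =>
      have h1 := reach_smul hadj (⟨x, hx⟩ : H)⁻¹ ih
      rw [inv_smul_smul] at h1
      exact h1.symm
  have hconn : (gr T H K).Connected := by
    refine (connected_iff _).2 ⟨?_, ⟨r₀⟩⟩
    have key : ∀ x : orb H K, (gr T H K).Reachable r₀ x := by
      rintro ⟨x, g, hg⟩
      have h1 := reach_smul hadj g⁻¹ (hK1 _ hg)
      have h2 : g⁻¹ • (⟨g • x, mem_orb hg⟩ : orb H K) = ⟨x, g, hg⟩ :=
        Subtype.ext (inv_smul_smul g x)
      rw [h2] at h1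
      exact (hH (g⁻¹ : H) (g⁻¹ : H).2).trans h1
    intro x y
    exact (key x).symm.trans (key y)
  have hT' : (gr T H K).IsTree := ⟨hconn, gr_acyclic hT.isAcyclic⟩
  -- the finite fundamental domain
  let K' : Finset (orb H K) := K.attach.image fun k => ⟨k.1, mem_orb k.2⟩
  have hK' : ∀ x : orb H K, (x : V) ∈ K → x ∈ K' := fun x hx =>
    Finset.mem_image.2 ⟨⟨x, hx⟩, Finset.mem_attach _ _, rfl⟩
  refine tree_dir hT' (fun g x y => gr_smul hadj g x y) ?_ ?_ K' ?_ ?_ hQ ?_
  · intro g x hx hgg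
    exact hinv (g : G) x hx.1 (congrArg Subtype.val hgg)
  · intro x y hxy
    have h1 := hfin x y hxy.1
    refine Finite.of_injective (fun a : (MulAction.stabilizer H x ⊓
      MulAction.stabilizer H y : Subgroup H) => (⟨(a : H), congrArg Subtype.val a.2.1,
        congrArg Subtype.val a.2.2⟩ : (MulAction.stabilizer G (x : V) ⊓
          MulAction.stabilizer G (y : V) : Subgroup G))) ?_
    intro a b hab
    have h2 := Subtype.ext_iff.1 hab
    exact Subtype.ext (Subtype.ext h2)
  · rintro ⟨x, g, hg⟩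
    exact ⟨g, hK' _ hg⟩
  · rintro x y ⟨_, g, hg1, hg2⟩
    exact ⟨g, hK' _ hg1, hK' _ hg2⟩
  · rintro ⟨x, g, hg⟩
    have hle : MulAction.stabilizer G x ≤ H := by
      intro a ha
      have h1 : (g : G) * a * (g : G)⁻¹ ∈ H := by
        refine hst _ hg ?_
        change ((g : G) * a * (g : G)⁻¹) • (g : G) • x = (g : G) • x
        rw [mul_smul, inv_smul_smul, mul_smul, show a • x = x from ha]
      have h2 := H.mul_mem (H.mul_mem (H.inv_mem g.2) h1) g.2
      have h3 : (g : G)⁻¹ * ((g : G) * a * (g : G)⁻¹) * g = a := by group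
      rwa [h3] at h2
    refine l1Bass_equiv ?_ (h x)
    exact
      { toFun := fun a => ⟨((a : H) : G), congrArg Subtype.val a.2⟩
        invFun := fun a => ⟨⟨a, hle a.2⟩, Subtype.ext a.2⟩
        left_inv := fun a => rfl
        right_inv := fun a => rfl
        map_mul' := fun a b => rfl }

end Vale.Agent.P184.H11.TreeRed
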