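import Mathlib
import Vale.Agent.P184.H11.TreeRed

/-!
# P184: the Bass-Serre tree of the amalgam of two groups
-/

namespace Vale.Agent.P184.H11.AmTree

open Vale.Agent.P184 Monoid Monoid.PushoutI SimpleGraph

universe u v

variable {G : Bool → Type v} {H : Type u} [∀ i, Group (G i)] [Group H] (φ : ∀ i, H →* G i)

/-- the vertices of the Bass-Serre tree -/
abbrev Vt := Σ i : Bool, PushoutI φ ⧸ (of (φ := φ) i).range

/-- a coset as a vertex -/
abbrev mk (i : Bool) (x : PushoutI φ) : Vt φ := ⟨i, QuotientGroup.mk x⟩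

theorem mk_eq' {i : Bool} {x y : PushoutI φ} :
    mk φ i x = mk φ i y ↔ ∃ g : G i, y = x * of i g := by
  have h1 : mk φ i x = mk φ i y ↔
      (QuotientGroup.mk x : PushoutI φ ⧸ (of (φ := φ) i).range) = QuotientGroup.mk y :=
    ⟨fun h => eq_of_heq (Sigma.mk.inj h).2, fun h => by rw [mk, mk, h]⟩
  rw [h1, QuotientGroup.eq]
  constructor
  · rintro ⟨g, hg⟩
    exact ⟨g, by rw [hg, mul_inv_cancel_left]⟩
  · rintro ⟨g, rfl⟩
    exact ⟨g, by rw [inv_mul_cancel_left]⟩

theorem mk_of (i : Bool) (x : PushoutI φ) (g : G i) : mk φ i (x * of i g) = mk φ i x :=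
  ((mk_eq' φ).2 ⟨g, rfl⟩).symm

theorem exists_mk (a : Vt φ) : ∃ x, a = mk φ a.1 x := by
  obtain ⟨i, q⟩ := a
  obtain ⟨x, rfl⟩ := QuotientGroup.mk_surjective q
  exact ⟨x, rfl⟩

/-- the Bass-Serre tree -/
def Tr : SimpleGraph (Vt φ) where
  Adj a b := ∃ (x : PushoutI φ) (i : Bool), a = mk φ i x ∧ b = mk φ (!i) x
  symm := ⟨by
    rintro a b ⟨x, i, rfl, rfl⟩
    exact ⟨x, !i, rfl, by rw [Bool.not_not]⟩⟩
  loopless := ⟨by
    rintro a ⟨x, i, h1, h2⟩
    have h3 : i = !i := (congrArg Sigma.fst h1).symm.trans (congrArg Sigma.fst h2)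
    exact absurd h3 (by cases i <;> decide)⟩

theorem adj_mk (i : Bool) (x : PushoutI φ) : (Tr φ).Adj (mk φ i x) (mk φ (!i) x) :=
  ⟨x, i, rfl, rfl⟩

theorem adj_fst {a b : Vt φ} (h : (Tr φ).Adj a b) : b.1 = !a.1 := by
  obtain ⟨x, i, rfl, rfl⟩ := h
  rfl

theorem adj_of {i : Bool} {x : PushoutI φ} {b : Vt φ} (h : (Tr φ).Adj (mk φ i x) b) :
    ∃ g : G i, b = mk φ (!i) (x * of i g) := by
  obtain ⟨y, j, h1, h2⟩ := h
  obtain rfl : i = j := congrArg Sigma.fst h1
  obtain ⟨g, rfl⟩ := (mk_eq' φ).1 h1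
  exact ⟨g, h2⟩

/-- the product of a list of letters -/
def pr (w : List (Σ i, G i)) : PushoutI φ := (w.map fun l => of l.1 l.2).prod

theorem pr_cons (l : Σ i, G i) (w : List (Σ i, G i)) : pr φ (l :: w) = of l.1 l.2 * pr φ w := by
  unfold pr
  rw [List.map_cons, List.prod_cons]

variable {φ}

theorem rep (i : Bool) (c : G i) (w : List (Σ i, G i))
    (h1 : (⟨i, c⟩ :: w : List (Σ i, G i)).IsChain fun l l' => l.1 ≠ l'.1)
    (h2 : ∀ l ∈ w, l.2 ∉ (φ l.1).range) :
    ∃ (h : H) (W : CoprodI.Word G), Reduced φ W ∧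
      of i c * pr φ w = base φ h * ofCoprodI W.prod ∧ w.length ≤ W.toList.length ∧
      W.toList.length ≤ w.length + 1 := by
  have key : ∀ (L : List (Σ i, G i)) (h3 : ∀ l ∈ L, l.2 ∉ (φ l.1).range)
      (h4 : L.IsChain fun l l' => l.1 ≠ l'.1), ∃ W : CoprodI.Word G, W.toList = L ∧
        Reduced φ W ∧ pr φ L = ofCoprodI W.prod := by
    intro L h3 h4
    refine ⟨⟨L, fun l hl h5 => h3 l hl (by rw [h5]; exact one_mem _), h4⟩, rfl, h3, ?_⟩
    unfold CoprodI.Word.prod pr
    rw [map_list_prod, List.map_map]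
    congr 1
  by_cases hc : c ∈ (φ i).range
  · obtain ⟨h, rfl⟩ := hc
    obtain ⟨W, h5, h6, h7⟩ := key w h2 (List.isChain_cons.1 h1).2
    refine ⟨h, W, h6, ?_, by rw [h5], by rw [h5]; exact Nat.le_succ _⟩
    rw [of_apply_eq_base, h7]
  · obtain ⟨W, h5, h6, h7⟩ := key (⟨i, c⟩ :: w) (by
      intro l hl
      rcases List.mem_cons.1 hl with rfl | hl
      · exact hc
      · exact h2 l hl) h1
    refine ⟨1, W, h6, ?_, by rw [h5, List.length_cons]; exact Nat.le_succ _,
      by rw [h5, List.length_cons]⟩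
    rw [map_one, one_mul, ← h7, pr_cons]

theorem len_eq (hφ : ∀ i, Function.Injective (φ i)) {h h' : H} {w w' : CoprodI.Word G}
    (hw : Reduced φ w) (hw' : Reduced φ w')
    (e : base φ h * ofCoprodI w.prod = base φ h' * ofCoprodI w'.prod) :
    w.toList.length = w'.toList.length := by
  classical
  obtain ⟨d⟩ := NormalWord.transversal_nonempty φ hφ
  obtain ⟨n, h1, h2⟩ := hw.exists_normalWord_prod_eq d
  obtain ⟨n', h1', h2'⟩ := hw'.exists_normalWord_prod_eq d
  rw [← h1, ← h1', ← NormalWord.prod_base_smul, ← NormalWord.prod_base_smul] at e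
  have h3 := NormalWord.prod_injective e
  have h4 : n.toList = n'.toList := by
    have h5 := congrArg (fun z : NormalWord d => z.toList) h3
    exact h5
  have h5 := congrArg List.length h2
  have h5' := congrArg List.length h2'
  rw [List.length_map, List.length_map] at h5 h5'
  rw [← h5, ← h5', h4]

theorem parity {a b : Vt φ} (p : (Tr φ).Walk a b) : b.1 = a.1 ↔ Even p.length := by
  induction p with
  | nil => exact ⟨fun _ => Even.zero, fun _ => rfl⟩
  | @cons a c b h p ih =>
    rw [Walk.length_cons, Nat.even_add_one, ← ih, adj_fst φ h]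
    cases b.1 <;> cases a.1 <;> decide

theorem path_word {a b : Vt φ} (p : (Tr φ).Walk a b) (hp : p.IsPath) :
    ∀ (i : Bool) (x : PushoutI φ), a = mk φ i x → (p.length = 0 ∧ b = mk φ i x) ∨
      ∃ (g : G i) (w : List (Σ i, G i)), w.length + 1 = p.length ∧
        (⟨i, g⟩ :: w : List (Σ i, G i)).IsChain (fun l l' => l.1 ≠ l'.1) ∧
        (∀ l ∈ w, l.2 ∉ (φ l.1).range) ∧ b = mk φ b.1 (x * of i g * pr φ w) ∧
        mk φ (!i) (x * of i g) ∈ p.support := by
  induction p with
  | nil =>
    rintro i x rfl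
    exact Or.inl ⟨rfl, rfl⟩
  | @cons a c b h p ih =>
    rintro i x rfl
    rw [Walk.cons_isPath_iff] at hp
    obtain ⟨g, hc⟩ := adj_of φ h
    refine Or.inr ?_
    rcases ih hp.1 (!i) (x * of i g) hc with ⟨h1, h2⟩ | ⟨g', w, h1, h2, h3, h4, h5⟩
    · refine ⟨g, [], ?_, List.isChain_singleton _, fun l hl => absurd hl List.not_mem_nil, ?_, ?_⟩
      · rw [Walk.length_cons, h1, List.length_nil]
      · rw [h2]
        unfold pr
        rw [List.map_nil, List.prod_nil, mul_one]
      · rw [Walk.support_cons, ← hc]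
        exact List.mem_cons_of_mem _ p.start_mem_support
    · refine ⟨g, ⟨!i, g'⟩ :: w, ?_, ?_, ?_, ?_, ?_⟩
      · rw [Walk.length_cons, ← h1, List.length_cons]
      · rw [List.isChain_cons_cons]
        exact ⟨(Bool.not_ne_self i).symm, h2⟩
      · intro l hl
        rcases List.mem_cons.1 hl with rfl | hl
        · rintro ⟨k, hk⟩
          refine hp.2 ?_
          have h6 : g' = φ (!i) k := hk.symm
          rw [h6, of_apply_eq_base, ← of_apply_eq_base φ i, Bool.not_not] at h5
          rw [mk_of, mk_of] at h5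
          exact h5
        · exact h3 l hl
      · rw [pr_cons, ← mul_assoc]
        exact h4
      · rw [Walk.support_cons, ← hc]
        exact List.mem_cons_of_mem _ p.start_mem_support

theorem acyclic (hφ : ∀ i, Function.Injective (φ i)) : (Tr φ).IsAcyclic := by
  intro v c hc
  cases c with
  | nil => exact hc.ne_nil rfl
  | @cons _ u _ h p =>
    rw [Walk.cons_isCycle_iff] at hc
    obtain ⟨x, hx⟩ := exists_mk φ u
    have hpar := parity p
    have hv : v.1 = !u.1 := by rw [adj_fst φ h, Bool.not_not]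
    have hodd : ¬ Even p.length := by
      rw [← hpar, hv]
      cases u.1 <;> decide
    rcases path_word p hc.1 u.1 x hx with ⟨h1, -⟩ | ⟨g, w, h1, h2, h3, h4, -⟩
    · rw [h1] at hodd
      exact hodd Even.zero
    · have h5 : (Tr φ).Adj (mk φ u.1 x) v := by
        rw [← hx]
        exact h.symm
      obtain ⟨g0, h6⟩ := adj_of φ h5
      rw [hv, h6, mk_eq'] at h4
      obtain ⟨d, hd⟩ := h4
      have h7 : (of u.1 (g0⁻¹ * g) : PushoutI φ) * pr φ w = of (!u.1) d * pr φ [] := by
        have h8 : pr φ ([] : List (Σ i, G i)) = 1 := rfl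
        have h9 : (of u.1 g : PushoutI φ) * pr φ w = of u.1 g0 * of (!u.1) d := by
          have h10 : x * (of u.1 g * pr φ w) = x * (of u.1 g0 * of (!u.1) d) := by
            rw [← mul_assoc, hd, mul_assoc]
          exact mul_left_cancel h10
        rw [h8, mul_one, map_mul, map_inv, mul_assoc, h9, inv_mul_cancel_left]
      have h2' : (⟨u.1, g0⁻¹ * g⟩ :: w : List (Σ i, G i)).IsChain fun l l' => l.1 ≠ l'.1 := by
        rw [List.isChain_cons] at h2 ⊢
        exact h2
      obtain ⟨k, W, hW1, hW2, hW3, -⟩ := rep u.1 (g0⁻¹ * g) w h2' h3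
      obtain ⟨k', W', hW1', hW2', -, hW3'⟩ := rep (φ := φ) (!u.1) d [] (List.isChain_singleton _)
        (fun l hl => absurd hl List.not_mem_nil)
      have h8 := len_eq hφ hW1 hW1' (hW2.symm.trans (h7.trans hW2'))
      rw [List.length_nil] at hW3'
      have h9 : w.length ≤ 1 := by omega
      have h10 : w.length = 0 := by
        rcases Nat.eq_zero_or_pos w.length with h | h
        · exact h
        · exfalso
          apply hodd
          rw [← h1]
          exact ⟨1, by omega⟩
      rw [h10] at h1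
      cases p with
      | nil => simp at h1
      | @cons _ y _ h' p' =>
        rw [Walk.length_cons] at h1
        have h11 : p'.length = 0 := by omega
        have h12 := Walk.eq_of_length_eq_zero h11
        subst h12
        refine hc.2 ?_
        rw [Walk.edges_cons]
        exact List.mem_cons.2 (Or.inl Sym2.eq_swap)

variable (φ)

theorem reach (g : PushoutI φ) : ∀ (x : PushoutI φ) (i : Bool),
    (Tr φ).Reachable (mk φ i x) (mk φ i (x * g)) := by
  have h0 : ∀ (x : PushoutI φ) (i j : Bool), (Tr φ).Reachable (mk φ i x) (mk φ j x) := by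
    intro x i j
    by_cases h : i = j
    · subst h
      exact Reachable.refl _
    · have h1 : j = !i := by cases i <;> cases j <;> simp_all
      subst h1
      exact (adj_mk φ i x).reachable
  induction g using PushoutI.induction_on with
  | of j g =>
    intro x i
    have h1 := h0 (x * of j g) j i
    rw [mk_of] at h1
    exact (h0 x i j).trans h1
  | base h =>
    intro x i
    rw [← of_apply_eq_base φ i, mk_of]
  | mul a b iha ihb =>
    intro x i
    rw [← mul_assoc]
    exact (iha x i).trans (ihb (x * a) i)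

theorem reach' (x : PushoutI φ) (i j : Bool) : (Tr φ).Reachable (mk φ i x) (mk φ j x) := by
  by_cases h : i = j
  · subst h
    exact Reachable.refl _
  · have h1 : j = !i := by cases i <;> cases j <;> simp_all
    subst h1
    exact (adj_mk φ i x).reachable

theorem isTree (hφ : ∀ i, Function.Injective (φ i)) : (Tr φ).IsTree := by
  have : Nonempty (Vt φ) := ⟨mk φ true 1⟩
  refine ⟨⟨fun a b => ?_⟩, acyclic hφ⟩
  obtain ⟨x, hx⟩ := exists_mk φ a
  obtain ⟨y, hy⟩ := exists_mk φ b
  rw [hx, hy]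
  have h := reach φ (x⁻¹ * y) x a.1
  rw [mul_inv_cancel_left] at h
  exact h.trans (reach' φ y a.1 b.1)

theorem smul_mk (g x : PushoutI φ) (i : Bool) : g • mk φ i x = mk φ i (g * x) := rfl

theorem hadj (g : PushoutI φ) (a b : Vt φ) (h : (Tr φ).Adj a b) :
    (Tr φ).Adj (g • a) (g • b) := by
  obtain ⟨x, i, rfl, rfl⟩ := h
  exact ⟨g * x, i, rfl, rfl⟩

theorem vert (v : Vt φ) : (∃ g : PushoutI φ, v = g • mk φ true 1) ∨
    ∃ g : PushoutI φ, v = g • mk φ false 1 := by
  obtain ⟨i, q⟩ := v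
  obtain ⟨x, rfl⟩ := QuotientGroup.mk_surjective q
  cases i
  · exact Or.inr ⟨x, by rw [smul_mk, mul_one]⟩
  · exact Or.inl ⟨x, by rw [smul_mk, mul_one]⟩

theorem ne (g : PushoutI φ) : g • mk φ true 1 ≠ mk φ false 1 := by
  intro h
  have h1 : true = false := congrArg Sigma.fst h
  exact absurd h1 (by decide)

theorem edge {a b : Vt φ} (h : (Tr φ).Adj a b) : ∃ g : PushoutI φ,
    (a = g • mk φ true 1 ∧ b = g • mk φ false 1) ∨
      (b = g • mk φ true 1 ∧ a = g • mk φ false 1) := by
  obtain ⟨x, i, rfl, rfl⟩ := h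
  refine ⟨x, ?_⟩
  rw [smul_mk, smul_mk, mul_one]
  cases i
  · exact Or.inr ⟨rfl, rfl⟩
  · exact Or.inl ⟨rfl, rfl⟩

theorem stab_eq (i : Bool) :
    MulAction.stabilizer (PushoutI φ) (mk φ i 1) = (of (φ := φ) i).range := by
  ext g
  rw [MulAction.mem_stabilizer_iff, smul_mk, mul_one, eq_comm, mk_eq']
  constructor
  · rintro ⟨x, hx⟩
    exact ⟨x, by rw [hx, one_mul]⟩
  · rintro ⟨x, rfl⟩
    exact ⟨x, by rw [one_mul]⟩

theorem inter (hφ : ∀ i, Function.Injective (φ i)) :
    MulAction.stabilizer (PushoutI φ) (mk φ true 1) ⊓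
      MulAction.stabilizer (PushoutI φ) (mk φ false 1) = (base φ).range := by
  rw [stab_eq, stab_eq]
  exact inf_of_range_eq_base_range hφ (by decide)

/-- the groups are the stabilisers of the base vertices -/
noncomputable def stabEquiv (hφ : ∀ i, Function.Injective (φ i)) (i : Bool) :
    G i ≃* MulAction.stabilizer (PushoutI φ) (mk φ i 1) :=
  (MonoidHom.ofInjective (of_injective hφ i)).trans (MulEquiv.subgroupCongr (stab_eq φ i).symm)

theorem stabEquiv_coe (hφ : ∀ i, Function.Injective (φ i)) (i : Bool) (g : G i) :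
    ((stabEquiv φ hφ i g : MulAction.stabilizer (PushoutI φ) (mk φ i 1)) : PushoutI φ) =
      of i g := rfl

end Vale.Agent.P184.H11.AmTree
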