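import Mathlib

/-!
# P184, row M, part 1: counting cocycles of actions of a free group
-/

namespace Vale.Agent.P184.H11

section Count

variable {ι X Y B : Type*} [AddCommGroup B]

/-- `ψ` is a cocycle over the action `a`. -/
def IsCoc (a : FreeGroup ι →* Equiv.Perm X) (ψ : FreeGroup ι → X → B) : Prop :=
  ∀ g h x, ψ (g * h) x = ψ g (a h x) + ψ h x

theorem IsCoc.one {a : FreeGroup ι →* Equiv.Perm X} {ψ : FreeGroup ι → X → B} (h : IsCoc a ψ)
    (x : X) : ψ 1 x = 0 := by
  have := h 1 1 x
  rw [map_one, Equiv.Perm.one_apply, one_mul] at this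
  exact left_eq_add.mp this

theorem IsCoc.inv {a : FreeGroup ι →* Equiv.Perm X} {ψ : FreeGroup ι → X → B} (h : IsCoc a ψ)
    (g : FreeGroup ι) (x : X) : ψ g⁻¹ x = -ψ g ((a g)⁻¹ x) := by
  have := h g g⁻¹ x
  rw [mul_inv_cancel, h.one, map_inv] at this
  exact (neg_eq_of_add_eq_zero_right this.symm).symm

theorem IsCoc.ext {a : FreeGroup ι →* Equiv.Perm X} {ψ ψ' : FreeGroup ι → X → B}
    (h : IsCoc a ψ) (h' : IsCoc a ψ') (hof : ∀ i x, ψ (FreeGroup.of i) x = ψ' (FreeGroup.of i) x)
    (w : FreeGroup ι) (x : X) : ψ w x = ψ' w x := by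
  induction w using FreeGroup.induction_on generalizing x with
  | C1 => rw [h.one, h'.one]
  | of i => exact hof i x
  | inv_of i _ => rw [h.inv, h'.inv]; exact congrArg Neg.neg (hof i _)
  | mul g k hg hk => rw [h, h', hg, hk]

/-- one step of the counting cocycle -/
noncomputable def stepPerm (a : FreeGroup ι →* Equiv.Perm X) (i : ι) :
    Equiv.Perm (X × ((X × ι) →₀ ℤ)) where
  toFun v := (a (FreeGroup.of i) v.1, v.2 + Finsupp.single (v.1, i) 1)
  invFun v := ((a (FreeGroup.of i)).symm v.1,
    v.2 - Finsupp.single ((a (FreeGroup.of i)).symm v.1, i) 1)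
  left_inv v := by
    refine Prod.ext ?_ ?_
    · exact Equiv.symm_apply_apply _ _
    · show v.2 + Finsupp.single (v.1, i) 1 -
        Finsupp.single ((a (FreeGroup.of i)).symm (a (FreeGroup.of i) v.1), i) 1 = v.2
      rw [Equiv.symm_apply_apply, add_sub_cancel_right]
  right_inv v := by
    refine Prod.ext ?_ ?_
    · exact Equiv.apply_symm_apply _ _
    · show v.2 - Finsupp.single ((a (FreeGroup.of i)).symm v.1, i) 1 +
        Finsupp.single ((a (FreeGroup.of i)).symm v.1, i) 1 = v.2
      rw [sub_add_cancel]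

/-- the number of times (with signs) the path which reads `w` from `x` uses the edge `(z, i)` -/
noncomputable def K (a : FreeGroup ι →* Equiv.Perm X) (w : FreeGroup ι) (x : X) : (X × ι) →₀ ℤ :=
  (FreeGroup.lift (stepPerm a) w (x, 0)).2

theorem lift_step (a : FreeGroup ι →* Equiv.Perm X) (w : FreeGroup ι) (x : X)
    (f : (X × ι) →₀ ℤ) :
    FreeGroup.lift (stepPerm a) w (x, f) = (a w x, K a w x + f) := by
  have key : ∀ w : FreeGroup ι, ∀ x f f', (FreeGroup.lift (stepPerm a) w (x, f)).1 = a w x ∧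
      (FreeGroup.lift (stepPerm a) w (x, f + f')).2 =
        (FreeGroup.lift (stepPerm a) w (x, f)).2 + f' := by
    intro w
    induction w using FreeGroup.induction_on with
    | C1 => intro x f f'; simp
    | of i =>
      intro x f f'
      rw [FreeGroup.lift_apply_of]
      refine ⟨rfl, ?_⟩
      show f + f' + Finsupp.single (x, i) 1 = f + Finsupp.single (x, i) 1 + f'
      rw [add_right_comm]
    | inv_of i _ =>
      intro x f f'
      rw [map_inv, map_inv, FreeGroup.lift_apply_of]
      refine ⟨rfl, ?_⟩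
      show f + f' - Finsupp.single ((a (FreeGroup.of i)).symm x, i) 1 =
        f - Finsupp.single ((a (FreeGroup.of i)).symm x, i) 1 + f'
      rw [add_sub_right_comm]
    | mul g k hg hk =>
      intro x f f'
      rw [map_mul, map_mul, Equiv.Perm.mul_apply, Equiv.Perm.mul_apply]
      obtain ⟨h1, h2⟩ := hk x f f'
      obtain ⟨h3, -⟩ := hk x (f + f') 0
      refine ⟨?_, ?_⟩
      · rw [show FreeGroup.lift (stepPerm a) k (x, f) =
          (a k x, (FreeGroup.lift (stepPerm a) k (x, f)).2) from Prod.ext h1 rfl]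
        exact (hg _ _ 0).1
      · rw [Equiv.Perm.mul_apply]
        rw [show FreeGroup.lift (stepPerm a) k (x, f + f') =
          (a k x, (FreeGroup.lift (stepPerm a) k (x, f)).2 + f') from Prod.ext h3 h2]
        rw [show FreeGroup.lift (stepPerm a) k (x, f) =
          (a k x, (FreeGroup.lift (stepPerm a) k (x, f)).2) from Prod.ext h1 rfl]
        exact (hg _ _ f').2
  refine Prod.ext (key w x f 0).1 ?_
  have := (key w x 0 f).2
  rw [zero_add] at this
  exact this

theorem K_coc (a : FreeGroup ι →* Equiv.Perm X) : IsCoc a (K a) := by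
  intro g h x
  show (FreeGroup.lift (stepPerm a) (g * h) (x, 0)).2 = _
  rw [map_mul, Equiv.Perm.mul_apply, lift_step a h x 0, lift_step a g, add_zero]

theorem K_of (a : FreeGroup ι →* Equiv.Perm X) (i : ι) (x : X) :
    K a (FreeGroup.of i) x = Finsupp.single (x, i) 1 := by
  show (FreeGroup.lift (stepPerm a) (FreeGroup.of i) (x, 0)).2 = _
  rw [FreeGroup.lift_apply_of]
  show (0 : (X × ι) →₀ ℤ) + Finsupp.single (x, i) 1 = _
  rw [zero_add]

/-- every cocycle is determined by the counts -/
theorem coc_eq_sum {a : FreeGroup ι →* Equiv.Perm X} {ψ : FreeGroup ι → X → B} (h : IsCoc a ψ)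
    (w : FreeGroup ι) (x : X) :
    ψ w x = (K a w x).sum fun v k => k • ψ (FreeGroup.of v.2) v.1 := by
  refine h.ext (ψ' := fun w x => (K a w x).sum fun v k => k • ψ (FreeGroup.of v.2) v.1) ?_ ?_ w x
  · intro g k x
    show ((K a (g * k) x).sum fun v k => k • ψ (FreeGroup.of v.2) v.1) = _
    rw [K_coc a g k x]
    exact Finsupp.sum_add_index'
      (h := fun (v : X × ι) (k : ℤ) => k • ψ (FreeGroup.of v.2) v.1)
      (fun _ => zero_smul _ _) (fun _ _ _ => add_smul _ _ _)
  · intro i x
    show _ = (K a (FreeGroup.of i) x).sum fun v k => k • ψ (FreeGroup.of v.2) v.1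
    rw [K_of]
    refine Eq.trans ?_ (Finsupp.sum_single_index
      (h := fun (v : X × ι) (k : ℤ) => k • ψ (FreeGroup.of v.2) v.1) (zero_smul _ _)).symm
    exact (one_smul ℤ _).symm

/-- functoriality of the counts -/
theorem K_map {a : FreeGroup ι →* Equiv.Perm X} {b : FreeGroup ι →* Equiv.Perm Y} (φ : X → Y)
    (hφ : ∀ w x, φ (a w x) = b w (φ x)) (w : FreeGroup ι) (x : X) :
    K b w (φ x) = (K a w x).mapDomain (Prod.map φ id) := by
  refine IsCoc.ext (a := a) (ψ := fun w x => K b w (φ x))
    (ψ' := fun w x => (K a w x).mapDomain (Prod.map φ id)) ?_ ?_ ?_ w x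
  · intro g h x
    show K b (g * h) (φ x) = K b g (φ (a h x)) + K b h (φ x)
    rw [K_coc b g h, hφ]
  · intro g h x
    show (K a (g * h) x).mapDomain (Prod.map φ id) = _
    rw [K_coc a g h, Finsupp.mapDomain_add]
  · intro i x
    show K b (FreeGroup.of i) (φ x) = (K a (FreeGroup.of i) x).mapDomain (Prod.map φ id)
    rw [K_of, K_of, Finsupp.mapDomain_single]
    rfl

/-- if all counts are divisible by `n`, then all cocycles are divisible by `n` -/
theorem dvd_coc {a : FreeGroup ι →* Equiv.Perm X} {ψ : FreeGroup ι → X → B} (h : IsCoc a ψ)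
    (w : FreeGroup ι) (x : X) (n : ℕ) (hn : ∀ v, (n : ℤ) ∣ K a w x v) :
    ∃ b : B, ψ w x = n • b := by
  have hmem : ψ w x ∈ (nsmulAddMonoidHom (α := B) n).range := by
    rw [coc_eq_sum h w x]
    refine AddSubgroup.sum_mem _ fun v _ => ?_
    obtain ⟨k, hk⟩ := hn v
    refine ⟨k • ψ (FreeGroup.of v.2) v.1, ?_⟩
    show n • (k • ψ (FreeGroup.of v.2) v.1) = K a w x v • ψ (FreeGroup.of v.2) v.1
    rw [hk, mul_smul, natCast_zsmul]
  obtain ⟨b, hb⟩ := hmem
  exact ⟨b, hb.symm⟩

end Count

section Fibre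

variable {Q ι : Type*} [Group Q] (C : Subgroup Q)

theorem fibre_finite (f : (Q × ι) →₀ ℤ) (x : Q) (i : ι) :
    (Function.support fun u : C => f (x * u, i)).Finite := by
  have hinj : Function.Injective fun u : C => ((x * u, i) : Q × ι) := by
    intro u v huv
    have := (Prod.ext_iff.1 huv).1
    exact Subtype.ext (mul_left_cancel this)
  refine (f.support.finite_toSet.preimage hinj.injOn).subset ?_
  intro u hu
  exact Finset.mem_coe.2 (Finsupp.mem_support_iff.2 hu)

/-- the push forward to the cosets is the sum over the fibre -/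
theorem fibre (f : (Q × ι) →₀ ℤ) (x : Q) (i : ι) :
    (f.mapDomain (Prod.map (QuotientGroup.mk : Q → Q ⧸ C) id)) ((x : Q ⧸ C), i) =
      ∑ᶠ u : C, f (x * u, i) := by
  classical
  induction f using Finsupp.induction_linear with
  | zero => simp
  | add f g hf hg =>
    rw [Finsupp.mapDomain_add, Finsupp.add_apply, hf, hg,
      ← finsum_add_distrib (fibre_finite C f x i) (fibre_finite C g x i)]
    rfl
  | single v k =>
    obtain ⟨q, j⟩ := v
    rw [Finsupp.mapDomain_single, Finsupp.single_apply]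
    by_cases hq : (q : Q ⧸ C) = (x : Q ⧸ C) ∧ j = i
    · obtain ⟨h1, rfl⟩ := hq
      rw [if_pos (by rw [Prod.map_apply, h1]; rfl)]
      have hmem : x⁻¹ * q ∈ C := QuotientGroup.eq.1 h1.symm
      rw [finsum_eq_single _ (⟨x⁻¹ * q, hmem⟩ : C)]
      · show k = Finsupp.single (q, j) k (x * (x⁻¹ * q), j)
        rw [mul_inv_cancel_left, Finsupp.single_eq_same]
      · intro u hu
        refine Finsupp.single_eq_of_ne ?_
        intro h
        apply hu
        refine Subtype.ext ?_
        have h2 : x * (u : Q) = q := (Prod.ext_iff.1 h).1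
        show (u : Q) = x⁻¹ * q
        rw [← h2, inv_mul_cancel_left]
    · rw [if_neg (fun h => hq ⟨(Prod.ext_iff.1 h).1, (Prod.ext_iff.1 h).2⟩)]
      symm
      rw [← finsum_zero (α := C)]
      refine finsum_congr fun u => ?_
      refine Finsupp.single_eq_of_ne ?_
      intro h
      apply hq
      have h2 : x * (u : Q) = q := (Prod.ext_iff.1 h).1
      refine ⟨?_, ((Prod.ext_iff.1 h).2).symm⟩
      rw [← h2]
      exact (QuotientGroup.mk_mul_of_mem x u.2)

end Fibre

end Vale.Agent.P184.H11
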