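import Vale.Agent.P184.H11.Free1
import Vale.Agent.P184.Bdl.B3

/-!
# P184: the `ℓ¹`-Bass conjecture is equivalent for a free product and for its factors
-/

namespace Vale.Agent.P184.H11

open Vale.Agent.P184 Vale.Agent.P184.H13
open Monoid Monoid.CoprodI

universe u v

/-- retracts -/
theorem l1Bass_retract {P Q : Type*} [Group P] [Group Q] (ι : Q →* P) (π : P →* Q)
    (hπ : ∀ x, π (ι x) = x) (h : L1Bass P) : L1Bass Q := by
  classical
  have hm : ∀ C : ConjClasses Q, ConjClasses.map π (ConjClasses.map ι C) = C := by
    intro C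
    obtain ⟨x, rfl⟩ := ConjClasses.mk_surjective C
    change ConjClasses.mk (π (ι x)) = _
    rw [hπ]
  intro q e he
  obtain ⟨b, hb, htau⟩ := pushforward ι e he
  obtain ⟨F, hF1, hF2⟩ := h q b hb
  refine ⟨F.image (ConjClasses.map π), ?_, ?_⟩
  · intro C hC
    obtain ⟨D, hD, rfl⟩ := Finset.mem_image.mp hC
    obtain ⟨y, rfl⟩ := ConjClasses.mk_surjective D
    exact isTorsionClass_mk.mpr (π.isOfFinOrder (isTorsionClass_mk.mp (hF1 _ hD)))
  · intro C hC
    have h1 : tau (ConjClasses.map ι C) b = 0 :=
      hF2 _ fun h2 => hC (Finset.mem_image.mpr ⟨_, h2, hm C⟩)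
    rw [← h1, htau]
    refine (tsum_classes_single he ι _ C rfl fun D hD hne => (hne ?_).elim).symm
    rw [← hm D, hD, hm]

section

variable {I : Type u} {G : I → Type v} [∀ i, Group (G i)]

/-- Elements not conjugate into a factor carry no trace. -/
theorem vanishesAt_neWord (hM : Main.{max u v, max u v, u}) {i j : I} (w : NeWord G i j)
    (hij : i ≠ j) : VanishesAt w.prod := by
  refine (hM (cocF (G := G)) ?_).1 _ (not_finOrder w hij) ⟨1, D_ne w hij⟩
  intro a b ha _
  have ha' : a = 1 := ha
  rw [ha']
  exact Commute.one_left b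

open Classical in
/-- the retraction to a factor -/
noncomputable def ret (G : I → Type v) [∀ i, Group (G i)] (i : I) : CoprodI G →* G i :=
  lift (Pi.mulSingle i (MonoidHom.id (G i)))

theorem ret_of (i : I) (a : G i) : ret G i (of a) = a := by
  classical
  exact of_leftInverse i a

theorem ret_of_ne {i j : I} (hij : j ≠ i) (a : G j) : ret G i (of a) = 1 := by
  classical
  unfold ret
  rw [lift_of, Pi.mulSingle_eq_of_ne hij]
  rfl

theorem l1Bass_coprodI_finite [Finite I] (hM : Main.{max u v, max u v, u})
    (h : ∀ i, L1Bass (G i)) : L1Bass (CoprodI G) := by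
  classical
  have hI := Fintype.ofFinite I
  intro q e he
  choose b hb htau using fun i => pushforward (ret G i) e he
  choose F hF1 hF2 using fun i => h i q (b i) (hb i)
  refine ⟨insert (ConjClasses.mk 1) (Finset.univ.biUnion fun i =>
    (F i).image (ConjClasses.map (of : G i →* CoprodI G))), ?_, ?_⟩
  · intro C hC
    rcases Finset.mem_insert.1 hC with rfl | hC
    · exact isTorsionClass_mk.mpr IsOfFinOrder.one
    · obtain ⟨i, _, hC⟩ := Finset.mem_biUnion.1 hC
      obtain ⟨D, hD, rfl⟩ := Finset.mem_image.mp hC
      obtain ⟨y, rfl⟩ := ConjClasses.mk_surjective D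
      exact isTorsionClass_mk.mpr
        ((of : G i →* CoprodI G).isOfFinOrder (isTorsionClass_mk.mp (hF1 i _ hD)))
  · intro C hC
    rw [Finset.mem_insert, not_or] at hC
    obtain ⟨t, rfl⟩ := ConjClasses.mk_surjective C
    rcases cases_conj t with rfl | ⟨i, a, ha⟩ | ⟨i, j, w, hij, hw⟩
    · exact (hC.1 rfl).elim
    · rw [ConjClasses.mk_eq_mk_iff_isConj.mpr ha] at hC ⊢
      have ha1 : a ≠ 1 := by
        rintro rfl
        exact hC.1 (by rw [map_one])
      have h1 : ConjClasses.mk a ∉ F i := fun h2 => hC.2 (Finset.mem_biUnion.2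
        ⟨i, Finset.mem_univ i, Finset.mem_image.2 ⟨_, h2, rfl⟩⟩)
      have h2 := hF2 i _ h1
      rw [htau] at h2
      have h3 := tau_eq_pushforward (ret G i) e he (of a) (by
        intro y hy1 hy2
        rw [ret_of] at hy1
        rcases cases_conj y with rfl | ⟨k, c, hc⟩ | ⟨k, l, w, hkl, hw⟩
        · rw [map_one] at hy1
          exact (ha1 (isConj_one_left.1 hy1)).elim
        · by_cases hk : k = i
          · subst hk
            have h4 : IsConj (ret G k y) (ret G k (of c)) := (ret G k).map_isConj hc
            rw [ret_of] at h4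
            exact (hy2 (((of : G k →* CoprodI G).map_isConj (hy1.trans h4)).trans
              hc.symm)).elim
          · have h4 : IsConj (ret G i y) (ret G i (of c)) := (ret G i).map_isConj hc
            rw [ret_of_ne hk] at h4
            exact (ha1 (isConj_one_left.1 (hy1.trans h4))).elim
        · intro q' e' he'
          rw [ConjClasses.mk_eq_mk_iff_isConj.mpr hw]
          exact vanishesAt_neWord hM w hkl q' e' he')
      rw [ret_of] at h3
      rw [← h3, h2]
    · rw [ConjClasses.mk_eq_mk_iff_isConj.mpr hw]
      exact vanishesAt_neWord hM w hij q e he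

open Classical in
/-- the projection to the free product of some of the factors -/
noncomputable def sub (G : I → Type v) [∀ i, Group (G i)] (J : Finset I) :
    CoprodI G →* CoprodI (fun i : J => G i) :=
  lift fun i => if h : i ∈ J then (of (M := fun i : J => G i) (i := ⟨i, h⟩)) else 1

/-- the inclusion of the free product of some of the factors -/
noncomputable def inc (G : I → Type v) [∀ i, Group (G i)] (J : Finset I) :
    CoprodI (fun i : J => G i) →* CoprodI G :=
  lift fun i : J => (of : G i →* CoprodI G)

theorem inc_sub_of (J : Finset I) {i : I} (h : i ∈ J) (a : G i) :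
    inc G J (sub G J (of a)) = of a := by
  unfold sub
  rw [lift_of, dif_pos h]
  exact lift_of (fun i : J => (of : G i →* CoprodI G)) (i := ⟨i, h⟩) a

theorem exists_support (x : CoprodI G) :
    ∃ J : Finset I, ∀ J' : Finset I, J ⊆ J' → inc G J' (sub G J' x) = x := by
  classical
  induction x using CoprodI.induction_on with
  | one => exact ⟨∅, fun J' _ => by rw [map_one, map_one]⟩
  | of i m => exact ⟨{i}, fun J' h => inc_sub_of J' (h (Finset.mem_singleton_self i)) m⟩
  | mul x y hx hy =>
    obtain ⟨J, hJ⟩ := hx
    obtain ⟨K, hK⟩ := hy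
    refine ⟨J ∪ K, fun J' h => ?_⟩
    rw [map_mul, map_mul, hJ J' (Finset.subset_union_left.trans h),
      hK J' (Finset.subset_union_right.trans h)]

theorem l1Bass_coprodI (hM : Main.{max u v, max u v, u}) (h : ∀ i, L1Bass (G i)) :
    L1Bass (CoprodI G) := by
  classical
  refine l1Bass_of_local.{max u v, max u v} fun S => ?_
  choose J hJ using exists_support (G := G)
  let K : Finset I := S.biUnion J
  refine ⟨CoprodI (fun i : K => G i), inferInstance, inc G K, sub G K, ⟨?_, ?_⟩,
    l1Bass_coprodI_finite hM fun i => h i⟩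
  · intro x hx
    exact hJ x K (Finset.subset_biUnion_of_mem J hx)
  · intro x _ y _ _
    exact (map_mul (sub G K) x y).symm

/-- **Free products.** -/
theorem freeProd (hM : Main.{max u v, max u v, u}) : L1Bass (CoprodI G) ↔ ∀ i, L1Bass (G i) :=
  ⟨fun h i => l1Bass_retract (of : G i →* CoprodI G) (ret G i) (ret_of i) h,
    l1Bass_coprodI hM⟩

end

end Vale.Agent.P184.H11
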