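import Vale.Agent.P184.H13.Rows

/-!
# P184: free products, part 1: the cocycle of a free product and its charges
-/

namespace Vale.Agent.P184.H11

open Vale.Agent.P184 Vale.Agent.P184.H13
open Monoid Monoid.CoprodI

variable {I : Type*} {G : I → Type*} [∀ i, Group (G i)]

/-- the index of the last letter of a word -/
def lstW (w : Word G) : Option I := w.toList.getLast?.map Sigma.fst

open Classical in
/-- the index of the last letter of the reduced word of `p` -/
noncomputable def lst (p : CoprodI G) : Option I := lstW (Word.equiv p)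

theorem lst_prod (w : Word G) : lst w.prod = lstW w := by
  classical
  have h : Word.equiv w.prod = w := Word.equiv.apply_symm_apply w
  unfold lst
  rw [h]

theorem lst_one : lst (1 : CoprodI G) = none := by
  have h := lst_prod (Word.empty : Word G)
  rw [Word.prod_empty] at h
  rw [h]
  rfl

theorem lst_neWord {i j : I} (w : NeWord G i j) : lst w.prod = some j := by
  have h := lst_prod w.toWord
  have h2 : lstW w.toWord = w.toList.getLast?.map Sigma.fst := rfl
  rw [h2, NeWord.toList_getLast?] at h
  exact h

open Classical in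
theorem lstW_rcons {i : I} (p : Word.Pair G i) (h : Word.rcons p ≠ Word.empty) :
    lstW (Word.rcons p) = some ((lstW p.tail).getD i) := by
  unfold Word.rcons at h ⊢
  unfold lstW
  rcases hl : p.tail.toList.getLast? with _ | x
  · have h1 : p.tail.toList = [] := List.getLast?_eq_none_iff.1 hl
    have h2 : p.tail = Word.empty := Word.ext h1
    split_ifs with h3
    · rw [dif_pos h3] at h
      exact (h h2).elim
    · simp [Word.cons, h1]
  · split_ifs with h3
    · rw [hl]
      rfl
    · simp [Word.cons, List.getLast?_cons, hl]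

open Classical in
theorem lst_of_mul {i : I} (g : G i) (p : CoprodI G) (h1 : p ≠ 1) (h2 : of g * p ≠ 1) :
    lst (of g * p) = lst p := by
  have hw : ∀ x : CoprodI G, Word.equiv x = x • (Word.empty : Word G) := fun _ => rfl
  have hne : ∀ x : CoprodI G, x ≠ 1 → Word.equiv x ≠ (Word.empty : Word G) := by
    intro x hx h
    refine hx (Word.equiv.injective ?_)
    rw [h, hw, one_smul]
  have e1 : Word.equiv (of g * p) = Word.rcons
      { Word.equivPair i (Word.equiv p) with
        head := g * (Word.equivPair i (Word.equiv p)).head } := by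
    rw [hw, mul_smul, ← hw, Word.of_smul_def]
  have e2 : Word.equiv p = Word.rcons (Word.equivPair i (Word.equiv p)) := by
    rw [← Word.equivPair_symm, Equiv.symm_apply_apply]
  have n1 := hne _ h2
  have n2 := hne _ h1
  have f2 : lst p = some ((lstW (Word.equivPair i (Word.equiv p)).tail).getD i) := by
    unfold lst
    rw [e2] at n2
    have := lstW_rcons _ n2
    rw [← e2] at this
    exact this
  have f1 : lst (of g * p) = some ((lstW (Word.equivPair i (Word.equiv p)).tail).getD i) := by
    unfold lst
    rw [e1] at n1 ⊢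
    exact lstW_rcons _ n1
  rw [f1, f2]

/-- the unit vector of the last index -/
noncomputable def bst (p : CoprodI G) : I →₀ ℤ :=
  (lst p).elim 0 fun i => Finsupp.single i 1

theorem bst_one : bst (1 : CoprodI G) = 0 := by
  unfold bst
  rw [lst_one]
  rfl

theorem bst_neWord {i j : I} (w : NeWord G i j) : bst w.prod = Finsupp.single j 1 := by
  unfold bst
  rw [lst_neWord]
  rfl

theorem bst_of_mul {i : I} (g : G i) (p : CoprodI G) (h1 : p ≠ 1) (h2 : of g * p ≠ 1) :
    bst (of g * p) = bst p := by
  unfold bst
  rw [lst_of_mul g p h1 h2]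

/-- the cocycle of the free product -/
noncomputable def cocF : Coc (CoprodI G) (CoprodI G) (I →₀ ℤ) where
  pi := MonoidHom.id _
  c g p := bst (g * p) - bst p
  fin g := by
    induction g using CoprodI.induction_on with
    | one =>
      refine Set.finite_empty.subset fun p hp => (hp ?_).elim
      rw [one_mul, sub_self]
    | of i m =>
      refine ((Set.finite_singleton ((of m : CoprodI G)⁻¹)).insert 1).subset fun p hp => ?_
      by_contra h
      rw [Set.mem_insert_iff, Set.mem_singleton_iff, not_or] at h
      refine hp ?_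
      rw [bst_of_mul m p h.1 fun h3 => h.2 (eq_inv_of_mul_eq_one_right h3), sub_self]
    | mul x y hx hy =>
      refine (hy.union (hx.preimage (mul_right_injective y).injOn)).subset fun p hp => ?_
      by_contra h
      rw [Set.mem_union, not_or] at h
      have h1 : bst (y * p) - bst p = 0 := not_not.1 h.1
      have h2 : bst (x * (y * p)) - bst (y * p) = 0 := not_not.1 h.2
      refine hp ?_
      rw [mul_assoc, ← sub_add_sub_cancel _ (bst (y * p)), h1, h2, add_zero]
  mul g h p := by
    change bst (g * h * p) - bst p = (bst (g * (h * p)) - bst (h * p)) + (bst (h * p) - bst p)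
    rw [mul_assoc, sub_add_sub_cancel]

section Hyp

variable {i j : I} (w : NeWord G i j)

theorem exists_pow (hij : i ≠ j) (k : ℕ) : ∃ v : NeWord G i j, v.prod = w.prod ^ (k + 1) := by
  induction k with
  | zero => exact ⟨w, by rw [zero_add, pow_one]⟩
  | succ k ih =>
    obtain ⟨v, hv⟩ := ih
    refine ⟨v.append hij.symm w, ?_⟩
    rw [NeWord.append_prod, hv, pow_succ _ (k + 1)]

theorem bst_pow (hij : i ≠ j) (k : ℕ) : bst (w.prod ^ (k + 1)) = Finsupp.single j 1 := by
  obtain ⟨v, hv⟩ := exists_pow w hij k
  rw [← hv, bst_neWord]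

theorem bst_inv_pow (hij : i ≠ j) (k : ℕ) :
    bst ((w.prod ^ (k + 1))⁻¹) = Finsupp.single i 1 := by
  obtain ⟨v, hv⟩ := exists_pow w hij k
  rw [← hv, ← NeWord.inv_prod, bst_neWord]

theorem single_ne {i : I} : (Finsupp.single i 1 : I →₀ ℤ) ≠ 0 := by
  rw [Ne, Finsupp.single_eq_zero]
  exact one_ne_zero

theorem not_finOrder (hij : i ≠ j) : ¬ IsOfFinOrder w.prod := by
  intro h
  obtain ⟨n, hn, h1⟩ := isOfFinOrder_iff_pow_eq_one.1 h
  obtain ⟨k, rfl⟩ := Nat.exists_eq_succ_of_ne_zero hn.ne'
  have h2 := bst_pow w hij k
  rw [Nat.succ_eq_add_one] at h1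
  rw [h1, bst_one] at h2
  exact single_ne h2.symm

theorem D_ne (hij : i ≠ j) : cocF.D w.prod 1 ≠ 0 := by
  classical
  set t := w.prod with ht
  have hpi : (cocF (G := G)).pi t = t := rfl
  have hb1 : bst t = Finsupp.single j 1 := by
    have := bst_pow w hij 0
    rwa [zero_add, pow_one] at this
  have hb2 : bst t⁻¹ = Finsupp.single i 1 := by
    have := bst_inv_pow w hij 0
    rwa [zero_add, pow_one] at this
  have hne : t⁻¹ ≠ 1 := by
    intro h
    rw [h, bst_one] at hb2
    exact single_ne hb2.symm
  let u1 : Subgroup.zpowers ((cocF (G := G)).pi t) := 1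
  let u2 : Subgroup.zpowers ((cocF (G := G)).pi t) := ⟨t⁻¹, Subgroup.inv_mem _
    (Subgroup.mem_zpowers t)⟩
  have h12 : u1 ≠ u2 := by
    intro h
    exact hne (congrArg Subtype.val h).symm
  have hD : cocF.D t 1 = ∑ᶠ u : Subgroup.zpowers ((cocF (G := G)).pi t),
      (bst (t * ((u : CoprodI G) * 1)) - bst ((u : CoprodI G) * 1)) := rfl
  rw [hD, finsum_eq_sum_of_support_subset (s := {u1, u2}), Finset.sum_pair h12]
  · have e1 : (u1 : CoprodI G) = 1 := rfl
    have e2 : (u2 : CoprodI G) = t⁻¹ := rfl
    rw [e1, e2, mul_one, mul_one, mul_one, mul_inv_cancel, bst_one, hb1, hb2, sub_zero, zero_sub]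
    intro h
    have h3 := DFunLike.congr_fun h j
    rw [Finsupp.add_apply, Finsupp.neg_apply, Finsupp.single_eq_same,
      Finsupp.single_eq_of_ne hij.symm, neg_zero, add_zero, Finsupp.zero_apply] at h3
    exact one_ne_zero h3
  · rintro ⟨u, hu⟩ hs
    rw [Function.mem_support, mul_one] at hs
    obtain ⟨n, hn⟩ := Subgroup.mem_zpowers_iff.1 hu
    rw [hpi] at hn
    rw [Finset.mem_coe, Finset.mem_insert, Finset.mem_singleton]
    rcases n with (_ | k) | (_ | k)
    · left
      refine Subtype.ext (hn.symm.trans ?_)
      exact zpow_zero t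
    · refine (hs ?_).elim
      change bst (t * u) - bst u = 0
      have h4 : t ^ (k + 1) = u := by
        rw [← hn]
        exact (zpow_natCast t (k + 1)).symm
      rw [← h4, ← pow_succ', bst_pow w hij, bst_pow w hij, sub_self]
    · right
      refine Subtype.ext (hn.symm.trans ?_)
      exact zpow_neg_one t
    · refine (hs ?_).elim
      change bst (t * u) - bst u = 0
      have h4 : (t ^ (k + 1 + 1))⁻¹ = u := by
        rw [← hn]
        exact (zpow_negSucc t (k + 1)).symm
      have h5 : t * (t ^ (k + 1 + 1))⁻¹ = (t ^ (k + 1))⁻¹ := by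
        rw [pow_succ _ (k + 1), mul_inv_rev, mul_inv_cancel_left]
      rw [← h4, h5, bst_inv_pow w hij, bst_inv_pow w hij, sub_self]

end Hyp

section Short

open Classical in
theorem rcons_length {i : I} (p : Word.Pair G i) :
    p.tail.toList.length ≤ (Word.rcons p).toList.length ∧
      (Word.rcons p).toList.length ≤ p.tail.toList.length + 1 := by
  unfold Word.rcons
  split_ifs
  · exact ⟨le_rfl, Nat.le_succ _⟩
  · exact ⟨Nat.le_succ _, le_rfl⟩

open Classical in
theorem smul_length {i : I} (g : G i) (w : Word G) :
    ((of g : CoprodI G) • w).toList.length ≤ w.toList.length + 1 := by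
  have e2 : w = Word.rcons (Word.equivPair i w) := by
    rw [← Word.equivPair_symm, Equiv.symm_apply_apply]
  have h1 := (rcons_length (Word.equivPair i w)).1
  rw [← e2] at h1
  rw [Word.of_smul_def]
  refine (rcons_length _).2.trans ?_
  exact Nat.add_le_add_right h1 1

/-- the product of a list of letters -/
def lprod (l : List (Σ i, G i)) : CoprodI G := (l.map fun x => of x.2).prod

theorem exists_word (l : List (Σ i, G i)) :
    ∃ w : Word G, w.prod = lprod l ∧ w.toList.length ≤ l.length := by
  classical
  induction l with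
  | nil => exact ⟨Word.empty, rfl, le_rfl⟩
  | cons x l ih =>
    obtain ⟨w, h1, h2⟩ := ih
    refine ⟨(of x.2 : CoprodI G) • w, ?_, ?_⟩
    · rw [Word.prod_smul, h1]
      rfl
    · exact (smul_length x.2 w).trans (Nat.add_le_add_right h2 1)

/-- Every element of a free product is trivial, or conjugate to an element of a factor, or to a
reduced word with first and last letter in different factors. -/
theorem cases_conj (t : CoprodI G) : t = 1 ∨ (∃ (i : I) (a : G i), IsConj t (of a)) ∨
    ∃ (i j : I) (w : NeWord G i j), i ≠ j ∧ IsConj t w.prod := by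
  classical
  have hex : ∃ n : ℕ, ∃ w : Word G, IsConj t w.prod ∧ w.toList.length = n :=
    ⟨_, Word.equiv t, by
      have h : (Word.equiv t).prod = t := Word.equiv.symm_apply_apply t
      rw [h], rfl⟩
  obtain ⟨w, hw, hn⟩ := Nat.find_spec hex
  have hmin : ∀ l : List (Σ i, G i), IsConj t (lprod l) → w.toList.length ≤ l.length := by
    intro l hl
    obtain ⟨w', h1, h2⟩ := exists_word l
    rw [hn]
    refine (Nat.find_min' hex ⟨w', ?_, rfl⟩).trans h2
    rwa [h1]
  by_cases h0 : w = Word.empty
  · left
    rw [h0, Word.prod_empty] at hw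
    exact isConj_one_left.1 hw
  · right
    obtain ⟨i, j, v, hv⟩ := NeWord.of_word w h0
    have hv' : v.prod = w.prod := congrArg Word.prod hv
    by_cases hij : i = j
    · left
      subst hij
      have hl1 : w.toList.head? = some ⟨i, v.head⟩ := by rw [← hv]; exact v.toList_head?
      have hl2 : w.toList.getLast? = some ⟨i, v.last⟩ := by rw [← hv]; exact v.toList_getLast?
      have hprod : w.prod = lprod w.toList := rfl
      rcases hl : w.toList with _ | ⟨x, l⟩
      · rw [hl] at hl1
        exact (Option.some_ne_none _ hl1.symm).elim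
      · rcases List.eq_nil_or_concat l with rfl | ⟨L, y, rfl⟩
        · refine ⟨x.1, x.2, ?_⟩
          have h5 : lprod [x] = of x.2 := by simp [lprod]
          rwa [hprod, hl, h5] at hw
        · exfalso
          rw [hl] at hl1 hl2
          rw [List.head?_cons, Option.some_inj] at hl1
          rw [List.concat_eq_append] at hl2 hl
          rw [← List.cons_append, List.getLast?_append_of_ne_nil _ (List.cons_ne_nil _ _),
            List.getLast?_singleton, Option.some_inj] at hl2
          have h6 := hmin (L ++ [⟨i, v.last * v.head⟩]) (by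
            refine hw.trans ?_
            rw [hprod, hl, hl1, hl2]
            refine isConj_iff.2 ⟨(of v.head)⁻¹, ?_⟩
            simp [lprod, mul_assoc])
          rw [hl] at h6
          simp at h6
    · right
      exact ⟨i, j, v, hij, by rwa [hv']⟩

end Short

end Vale.Agent.P184.H11
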