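import Vale.Agent.P184.H11.TreeAny
import Vale.Agent.P184.H290.Tree4
import Vale.Agent.P184.H788.TrF

/-!
# P184: groups acting on trees with finite edge stabilisers, hypothesis free, with a converse
-/

namespace Vale.Agent.P184.H11.TreeConv

open Vale.Agent.P184
open Vale.Agent.P184.H290
open Vale.Agent.P184.H290.Tree

universe u v

/-- **Trees.**  Any action on any tree (inversions allowed, any number of orbits) whose edges have
finite pointwise stabilisers. -/
theorem tree_main {G : Type u} {V : Type v} [Group G] [MulAction G V] (T : SimpleGraph V)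
    (hT : T.IsTree) (hadj : ∀ (g : G) u v, T.Adj u v → T.Adj (g • u) (g • v))
    (hfin : ∀ u v, T.Adj u v →
      Finite (MulAction.stabilizer G u ⊓ MulAction.stabilizer G v : Subgroup G))
    (h : ∀ v : V, L1Bass (MulAction.stabilizer G v)) : L1Bass G :=
  TreeAny.treeAny T hT hadj hfin Vale.Agent.P184.H788.rowQ2 h

/-- The converse, one vertex: the edges at `v` with a nontrivial stabiliser form finitely many
orbits of the stabiliser of `v`. -/
theorem conv_loc {G : Type u} {V : Type v} [Group G] [MulAction G V] {T : SimpleGraph V}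
    (hT : T.IsTree) (hadj : ∀ (g : G) u v, T.Adj u v → T.Adj (g • u) (g • v))
    (hfin : ∀ u v, T.Adj u v →
      Finite (MulAction.stabilizer G u ⊓ MulAction.stabilizer G v : Subgroup G)) (v : V)
    (N : Finset V) (hN : ∀ n, T.Adj v n → ∀ a : G, a ≠ 1 → a • v = v → a • n = n →
      ∃ g : G, g • v = v ∧ g • n ∈ N)
    (h : L1Bass G) : L1Bass (MulAction.stabilizer G v) := by
  classical
  refine l1Bass_of_inj (MulAction.stabilizer G v).subtype Subtype.val_injective
    {C | ∃ a : MulAction.stabilizer G v, C = ConjClasses.mk a ∧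
      (a = 1 ∨ ∃ n, T.Adj v n ∧ (a : G) • n = n)} ?_ ?_ ?_ h
  · have h1 : (⋃ w ∈ N, {C : ConjClasses (MulAction.stabilizer G v) | T.Adj v w ∧
        ∃ b : MulAction.stabilizer G v, C = ConjClasses.mk b ∧ (b : G) • w = w}).Finite := by
      refine N.finite_toSet.biUnion fun w _ => ?_
      by_cases hw : T.Adj v w
      · have h2 := hfin v w hw
        have h3 : {b : MulAction.stabilizer G v | (b : G) • w = w}.Finite := by
          refine Set.Finite.of_injOn (f := fun b : MulAction.stabilizer G v => (b : G))
            (t := ((MulAction.stabilizer G v ⊓ MulAction.stabilizer G w : Subgroup G) : Set G))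
            (fun b hb => ⟨b.2, hb⟩) (fun b _ b' _ hbb => Subtype.ext hbb) (Set.toFinite _)
        refine (h3.image ConjClasses.mk).subset ?_
        rintro C ⟨_, b, rfl, hb⟩
        exact ⟨b, hb, rfl⟩
      · refine Set.finite_empty.subset ?_
        rintro C ⟨h2, _⟩
        exact hw h2
    refine ((Set.finite_singleton (ConjClasses.mk
      (1 : MulAction.stabilizer G v))).union h1).subset ?_
    rintro C ⟨a, rfl, rfl | ⟨n, hn1, hn2⟩⟩
    · exact Or.inl rfl
    · by_cases ha : a = 1
      · subst ha
        exact Or.inl rfl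
      refine Or.inr ?_
      obtain ⟨g, h2, h3⟩ := hN n hn1 a (fun h => ha (Subtype.ext h)) a.2 hn2
      rw [Set.mem_iUnion₂]
      let c : MulAction.stabilizer G v := ⟨g, h2⟩
      refine ⟨g • n, h3, ?_, c * a * c⁻¹,
        ConjClasses.mk_eq_mk_iff_isConj.2 (isConj_iff.2 ⟨c, rfl⟩), ?_⟩
      · have h4 := hadj g v n hn1
        rwa [h2] at h4
      · change (g * (a : G) * g⁻¹) • g • n = g • n
        rw [mul_smul, inv_smul_smul, mul_smul, hn2]
  · rintro C ⟨a, rfl, rfl | ⟨n, hn1, hn2⟩⟩
    · exact isTorsionClass_mk.mpr IsOfFinOrder.one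
    · refine isTorsionClass_mk.mpr ?_
      exact (Function.Injective.isOfFinOrder_iff
          (f := (MulAction.stabilizer G v).subtype) Subtype.val_injective).1
          (torsion_of_edge hfin hn1 a.2 hn2)
  · intro a a' ha haa
    obtain ⟨c, hc⟩ := isConj_iff.1 haa
    have h1 : NoEdge T v (a : G) := fun n hn h => ha ⟨a, rfl, Or.inr ⟨n, hn, h⟩⟩
    have h2 : (a : G) • c⁻¹ • v = c⁻¹ • v := by
      have h3 : (c * (a : G) * c⁻¹) • v = v := by
        change c * (a : G) * c⁻¹ = _ at hc
        rw [hc]
        exact a'.2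
      rw [mul_smul, mul_smul] at h3
      rw [← smul_left_cancel_iff c, h3, smul_inv_smul]
    have h4 := fix_eq hT hadj a.2 h1 h2
    exact isConj_iff.2 ⟨⟨c, (inv_smul_eq_iff.1 h4).symm⟩, Subtype.ext hc⟩

/-- **Trees, equivalence.**  Any action (inversions allowed, any number of orbits) on a tree whose
edges have finite pointwise stabilisers, and at every vertex `v` all edges with a nontrivial
stabiliser, up to finitely many orbits of the stabiliser of `v`. -/
theorem tree_iff {G : Type u} {V : Type v} [Group G] [MulAction G V] (T : SimpleGraph V)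
    (hT : T.IsTree) (hadj : ∀ (g : G) u v, T.Adj u v → T.Adj (g • u) (g • v))
    (hfin : ∀ u v, T.Adj u v →
      Finite (MulAction.stabilizer G u ⊓ MulAction.stabilizer G v : Subgroup G))
    (hN : ∀ v, ∃ N : Finset V, ∀ n, T.Adj v n → ∀ a : G, a ≠ 1 → a • v = v → a • n = n →
      ∃ g : G, g • v = v ∧ g • n ∈ N) :
    L1Bass G ↔ ∀ v : V, L1Bass (MulAction.stabilizer G v) :=
  ⟨fun h v => (hN v).elim fun N hN => conv_loc hT hadj hfin v N hN h,
    tree_main T hT hadj hfin⟩

end Vale.Agent.P184.H11.TreeConv
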