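import Mathlib
import Vale.Agent.P184.H11.TreeConv

/-!
# P184: HNN extensions over finite subgroups (the Bass-Serre tree of an HNN extension)
-/

namespace Vale.Agent.P184.H11.Hnn

open Vale.Agent.P184 HNNExtension HNNExtension.NormalWord SimpleGraph

universe u

variable {G : Type u} [Group G] {A B : Subgroup G} (φ : A ≃* B)

/-- the base group in the HNN extension -/
abbrev Rg : Subgroup (HNNExtension G A B φ) := of.range

/-- the vertices of the Bass-Serre tree -/
abbrev Vt := HNNExtension G A B φ ⧸ Rg φ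

/-- a coset as a vertex -/
abbrev mk (x : HNNExtension G A B φ) : Vt φ := QuotientGroup.mk x

theorem mk_eq {x y : HNNExtension G A B φ} : mk φ x = mk φ y ↔ ∃ g : G, y = x * of g := by
  rw [QuotientGroup.eq]
  constructor
  · rintro ⟨g, hg⟩
    exact ⟨g, by rw [hg, mul_inv_cancel_left]⟩
  · rintro ⟨g, rfl⟩
    exact ⟨g, by rw [inv_mul_cancel_left]⟩

/-- the exponent of the stable letter -/
noncomputable def expo : HNNExtension G A B φ →* Multiplicative ℤ :=
  lift 1 (Multiplicative.ofAdd 1) fun a => by simp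

theorem t_ne (g : G) : (t : HNNExtension G A B φ) ≠ of g := by
  intro h
  have h1 := congrArg (expo φ) h
  unfold expo at h1
  rw [lift_t, lift_of] at h1
  have h2 := congrArg Multiplicative.toAdd h1
  simp at h2

/-- the Bass-Serre tree -/
def Tr : SimpleGraph (Vt φ) where
  Adj a b := ∃ x : HNNExtension G A B φ, (a = mk φ x ∧ b = mk φ (x * t)) ∨
    (b = mk φ x ∧ a = mk φ (x * t))
  symm := ⟨by
    rintro a b ⟨x, h | h⟩
    · exact ⟨x, Or.inr h⟩
    · exact ⟨x, Or.inl h⟩⟩
  loopless := ⟨by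
    rintro a ⟨x, ⟨h1, h2⟩ | ⟨h1, h2⟩⟩ <;>
    · obtain ⟨g, hg⟩ := (mk_eq φ).1 (h1.symm.trans h2)
      exact t_ne φ g (mul_left_cancel hg)⟩

theorem adj_t (x : HNNExtension G A B φ) : (Tr φ).Adj (mk φ x) (mk φ (x * t)) :=
  ⟨x, Or.inl ⟨rfl, rfl⟩⟩

theorem adj_of {x : HNNExtension G A B φ} {b : Vt φ} (h : (Tr φ).Adj (mk φ x) b) :
    ∃ (g : G) (e : ℤˣ), b = mk φ (x * of g * t ^ (e : ℤ)) := by
  obtain ⟨y, ⟨h1, h2⟩ | ⟨h1, h2⟩⟩ := h
  · obtain ⟨g, rfl⟩ := (mk_eq φ).1 h1
    exact ⟨g, 1, by rw [h2]; simp⟩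
  · obtain ⟨g, hg⟩ := (mk_eq φ).1 h2
    refine ⟨g, -1, ?_⟩
    rw [h1, ← hg]
    simp

/-- the product of a reduced word, one letter at a time -/
theorem prod_cons' (g : G) (e : ℤˣ) (w : ReducedWord G A B)
    (h : ((e, w.head) :: w.toList).IsChain
      (fun a b : ℤˣ × G => a.2 ∈ toSubgroup A B a.1 → a.1 = b.1)) :
    (⟨g, (e, w.head) :: w.toList, h⟩ : ReducedWord G A B).prod φ =
      of g * t ^ (e : ℤ) * w.prod φ := by
  unfold ReducedWord.prod
  rw [List.map_cons, List.prod_cons]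
  simp only [mul_assoc]

theorem cancel (e : ℤˣ) (a : G) (ha : a ∈ toSubgroup A B e) :
    ∃ b : G, (t : HNNExtension G A B φ) ^ (e : ℤ) * of a * t ^ ((-e : ℤˣ) : ℤ) = of b := by
  rcases Int.units_eq_one_or e with rfl | rfl
  · refine ⟨φ ⟨a, ha⟩, ?_⟩
    have h := equiv_eq_conj (φ := φ) ⟨a, ha⟩
    rw [h]
    simp
  · refine ⟨φ.symm ⟨a, ha⟩, ?_⟩
    have h := equiv_symm_eq_conj (φ := φ) ⟨a, ha⟩
    rw [h]
    simp

theorem path_word {a b : Vt φ} (p : (Tr φ).Walk a b) (hp : p.IsPath) :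
    ∀ x : HNNExtension G A B φ, a = mk φ x → ∃ w : ReducedWord G A B,
      w.toList.length = p.length ∧ b = mk φ (x * w.prod φ) ∧
      ∀ u ∈ w.toList.head?, mk φ (x * of w.head * t ^ (u.1 : ℤ)) ∈ p.support := by
  induction p with
  | nil =>
    rintro x rfl
    refine ⟨ReducedWord.empty G A B, rfl, ?_, ?_⟩
    · congr 1
      simp [ReducedWord.prod]
    · intro u hu
      simp at hu
  | @cons a c b h p ih =>
    rintro x rfl
    rw [Walk.cons_isPath_iff] at hp
    obtain ⟨g, e, hc⟩ := adj_of φ h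
    obtain ⟨w, hw1, hw2, hw3⟩ := ih hp.1 _ hc
    have hch : ((e, w.head) :: w.toList).IsChain
        (fun a b : ℤˣ × G => a.2 ∈ toSubgroup A B a.1 → a.1 = b.1) := by
      rw [List.isChain_cons]
      refine ⟨fun u hu hm => ?_, w.chain⟩
      by_contra hne
      have hu1 : u.1 = -e := by
        rcases Int.units_eq_one_or e with rfl | rfl <;>
        rcases Int.units_eq_one_or u.1 with h1 | h1 <;> simp_all
      obtain ⟨b', hb'⟩ := cancel φ e w.head hm
      refine hp.2 ?_
      have h1 := hw3 u hu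
      rw [hu1, mul_assoc (x * of g), mul_assoc (x * of g), hb',
        mul_assoc x, ← map_mul] at h1
      have h2 : mk φ x = mk φ (x * of (g * b')) := (mk_eq φ).2 ⟨_, rfl⟩
      rw [h2]
      exact h1
    refine ⟨⟨g, (e, w.head) :: w.toList, hch⟩, ?_, ?_, ?_⟩
    · simp [hw1]
    · rw [prod_cons', hw2]
      simp only [mul_assoc]
    · intro u hu
      rw [List.head?_cons, Option.mem_some_iff] at hu
      subst hu
      rw [Walk.support_cons]
      refine List.mem_cons_of_mem _ ?_
      rw [← hc]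
      exact p.start_mem_support

theorem acyclic : (Tr φ).IsAcyclic := by
  intro v c hc
  cases c with
  | nil => exact hc.ne_nil rfl
  | @cons _ u _ h p =>
    rw [Walk.cons_isCycle_iff] at hc
    obtain ⟨x, rfl⟩ := QuotientGroup.mk_surjective u
    obtain ⟨w, hw1, hw2, -⟩ := path_word φ p hc.1 x rfl
    obtain ⟨g, e, hge⟩ := adj_of φ h.symm
    obtain ⟨g', hg'⟩ := (mk_eq φ).1 (hge.symm.trans hw2)
    let w' : ReducedWord G A B := ⟨g, [(e, g')], List.isChain_singleton _⟩
    have h1 : w.prod φ = w'.prod φ := by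
      have h2 : w'.prod φ = of g * (t ^ (e : ℤ) * of g') := by
        simp [w', ReducedWord.prod]
      rw [h2]
      have h3 : x * w.prod φ = x * (of g * (t ^ (e : ℤ) * of g')) := by
        rw [hg']
        simp only [mul_assoc]
      exact mul_left_cancel h3
    have h2 := congrArg List.length (HNNExtension.ReducedWord.map_fst_eq_and_of_prod_eq φ h1).1
    rw [List.length_map, List.length_map, hw1] at h2
    cases p with
    | nil => simp [w'] at h2
    | @cons _ y _ h' p' =>
      rw [Walk.length_cons] at h2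
      have h3 : p'.length = 0 := by
        have : w'.toList.length = 1 := rfl
        omega
      have h4 := Walk.eq_of_length_eq_zero h3
      subst h4
      refine hc.2 ?_
      rw [Walk.edges_cons]
      exact List.mem_cons.2 (Or.inl Sym2.eq_swap)

theorem reach (g : HNNExtension G A B φ) : ∀ x : HNNExtension G A B φ,
    (Tr φ).Reachable (mk φ x) (mk φ (x * g)) := by
  induction g using HNNExtension.induction_on with
  | of g =>
    intro x
    rw [(mk_eq φ).2 ⟨g, rfl⟩]
  | t => exact fun x => (adj_t φ x).reachable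
  | mul a b iha ihb =>
    intro x
    rw [← mul_assoc]
    exact (iha x).trans (ihb (x * a))
  | inv a iha =>
    intro x
    have h := iha (x * a⁻¹)
    rw [inv_mul_cancel_right] at h
    exact h.symm

theorem isTree : (Tr φ).IsTree := by
  refine ⟨⟨fun a b => ?_⟩, acyclic φ⟩
  obtain ⟨x, rfl⟩ := QuotientGroup.mk_surjective a
  obtain ⟨y, rfl⟩ := QuotientGroup.mk_surjective b
  have h := reach φ (x⁻¹ * y) x
  rw [mul_inv_cancel_left] at h
  exact h

theorem smul_mk (g x : HNNExtension G A B φ) : g • mk φ x = mk φ (g * x) := rfl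

theorem hadj (g : HNNExtension G A B φ) (a b : Vt φ) (h : (Tr φ).Adj a b) :
    (Tr φ).Adj (g • a) (g • b) := by
  obtain ⟨x, ⟨rfl, rfl⟩ | ⟨rfl, rfl⟩⟩ := h
  · exact ⟨g * x, Or.inl ⟨rfl, by rw [smul_mk, mul_assoc]⟩⟩
  · exact ⟨g * x, Or.inr ⟨rfl, by rw [smul_mk, mul_assoc]⟩⟩

theorem inter {g g' : G} (h : (t : HNNExtension G A B φ) * of g' * t⁻¹ = of g) : g' ∈ A := by
  by_contra hg'
  let w : ReducedWord G A B := ⟨1, [(1, g'), (-1, 1)], by
    refine List.isChain_cons_cons.2 ⟨fun h => (hg' h).elim, List.isChain_singleton _⟩⟩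
  have h1 : w.prod φ = of g := by
    rw [← h]
    simp [w, ReducedWord.prod, mul_assoc]
  have h2 := HNNExtension.ReducedWord.toList_eq_nil_of_mem_of_range φ w ⟨g, h1.symm⟩
  exact List.cons_ne_nil _ _ h2

theorem edge_fin [Finite A] (x : HNNExtension G A B φ) :
    ((MulAction.stabilizer (HNNExtension G A B φ) (mk φ x) ⊓
      MulAction.stabilizer (HNNExtension G A B φ) (mk φ (x * t)) :
        Subgroup (HNNExtension G A B φ)) : Set (HNNExtension G A B φ)).Finite := by
  refine (Set.finite_range fun a : A =>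
    x * (t * of (a : G) * t⁻¹) * x⁻¹).subset ?_
  rintro y ⟨hy1, hy2⟩
  obtain ⟨g, hg⟩ := (mk_eq φ).1 (show mk φ x = mk φ (y * x) from (hy1 : y • mk φ x = _).symm)
  obtain ⟨g', hg'⟩ := (mk_eq φ).1 (show mk φ (x * t) = mk φ (y * (x * t)) from
    (hy2 : y • mk φ (x * t) = _).symm)
  have h1 : y = x * (t * of g' * t⁻¹) * x⁻¹ := by
    have h2 : y = x * t * of g' * (x * t)⁻¹ := by
      rw [← hg', mul_inv_cancel_right]
    rw [h2, mul_inv_rev]
    simp only [mul_assoc]
  have h3 : (t : HNNExtension G A B φ) * of g' * t⁻¹ = of g := by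
    have h4 : x * (t * of g' * t⁻¹) = x * of g := by
      rw [← hg, h1, inv_mul_cancel_right]
    exact mul_left_cancel h4
  exact ⟨⟨g', inter φ h3⟩, h1.symm⟩

theorem hfin [Finite A] (a b : Vt φ) (h : (Tr φ).Adj a b) :
    Finite (MulAction.stabilizer (HNNExtension G A B φ) a ⊓
      MulAction.stabilizer (HNNExtension G A B φ) b : Subgroup (HNNExtension G A B φ)) := by
  obtain ⟨x, ⟨rfl, rfl⟩ | ⟨rfl, rfl⟩⟩ := h
  · exact (edge_fin φ x).to_subtype
  · rw [inf_comm]
    exact (edge_fin φ x).to_subtype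

/-- the base group is the stabiliser of the base vertex -/
noncomputable def stabEquiv :
    G ≃* MulAction.stabilizer (HNNExtension G A B φ) (mk φ 1) :=
  (MonoidHom.ofInjective (HNNExtension.of_injective (φ := φ))).trans
    (MulEquiv.subgroupCongr (MulAction.stabilizer_quotient (Rg φ)).symm)

theorem stab (h : L1Bass G) (v : Vt φ) :
    L1Bass (MulAction.stabilizer (HNNExtension G A B φ) v) := by
  obtain ⟨x, rfl⟩ := QuotientGroup.mk_surjective v
  have h1 : mk φ x = x • mk φ 1 := by rw [smul_mk, mul_one]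
  exact TreeRed.l1Bass_equiv (MulAction.stabilizerEquivStabilizer h1).symm
    (TreeRed.l1Bass_equiv (stabEquiv φ).symm h)

/-- **HNN extensions over a finite subgroup.** -/
theorem hnn_finite [Finite A] : L1Bass (HNNExtension G A B φ) ↔ L1Bass G := by
  classical
  constructor
  · intro h
    refine TreeRed.l1Bass_equiv (stabEquiv φ) (TreeConv.conv_loc (isTree φ) (hadj φ) (hfin φ)
      (mk φ 1) {mk φ t, mk φ t⁻¹} ?_ h)
    rintro n hn - - - -
    obtain ⟨g, e, rfl⟩ := adj_of φ hn
    refine ⟨(of g)⁻¹, ?_, ?_⟩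
    · rw [smul_mk, mul_one]
      exact (mk_eq φ).2 ⟨g, (inv_mul_cancel _).symm⟩
    · rw [smul_mk, one_mul, inv_mul_cancel_left]
      rcases Int.units_eq_one_or e with rfl | rfl <;> simp
  · intro h
    exact TreeConv.tree_main (Tr φ) (isTree φ) (hadj φ) (hfin φ) (stab φ h)

end Vale.Agent.P184.H11.Hnn
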