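import Vale.Agent.P184.H11.Hnn

/-!
# P184: conjugacy in the base group of an HNN extension
-/

namespace Vale.Agent.P184.H11.HnnConj

open Vale.Agent.P184 HNNExtension Vale.Agent.P184.H11.Hnn
open Vale.Agent.P184.H290.Tree (NoEdge fix_eq)

universe u

variable {G : Type u} [Group G] {A B : Subgroup G} (φ : A ≃* B)

/-- an element of the base group which is not conjugate into `A` or `B` fixes no edge at the base
vertex -/
theorem noEdge {m : G} (hA : ∀ a ∈ A, ¬ IsConj m a) (hB : ∀ b ∈ B, ¬ IsConj m b) :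
    NoEdge (Tr φ) (mk φ 1) (of m : HNNExtension G A B φ) := by
  intro n hn hfix
  obtain ⟨g, e, rfl⟩ := adj_of φ hn
  rw [one_mul, smul_mk] at hfix
  obtain ⟨k, hk⟩ := (mk_eq φ).1 hfix.symm
  have h1 : (of (g⁻¹ * m * g) : HNNExtension G A B φ) = t ^ (e : ℤ) * of k * t ^ (-(e : ℤ)) := by
    rw [map_mul, map_mul, map_inv, zpow_neg]
    have h2 : (of m : HNNExtension G A B φ) * (of g * t ^ (e : ℤ)) =
      of g * t ^ (e : ℤ) * of k := hk
    calc (of g)⁻¹ * of m * of g
        = (of g)⁻¹ * (of m * (of g * t ^ (e : ℤ))) * (t ^ (e : ℤ))⁻¹ := by group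
      _ = (of g)⁻¹ * (of g * t ^ (e : ℤ) * of k) * (t ^ (e : ℤ))⁻¹ := by rw [h2]
      _ = t ^ (e : ℤ) * of k * (t ^ (e : ℤ))⁻¹ := by group
  have hconj : IsConj m (g⁻¹ * m * g) := isConj_iff.2 ⟨g⁻¹, by rw [inv_inv]⟩
  rcases Int.units_eq_one_or e with rfl | rfl
  · have h3 : (t : HNNExtension G A B φ) * of k * t⁻¹ = of (g⁻¹ * m * g) := by
      rw [h1]
      simp
    have hk' : k ∈ A := inter φ h3
    have h4 : (of (g⁻¹ * m * g) : HNNExtension G A B φ) = of (φ ⟨k, hk'⟩ : G) := by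
      rw [← h3, equiv_eq_conj]
    have h5 := HNNExtension.of_injective (φ := φ) h4
    exact hB _ (φ ⟨k, hk'⟩).2 (h5 ▸ hconj)
  · have h3 : (t : HNNExtension G A B φ) * of (g⁻¹ * m * g) * t⁻¹ = of k := by
      rw [h1]
      simp [mul_assoc]
    exact hA _ (inter φ h3) hconj

/-- **Conjugacy in an HNN extension** of elements of the base group, the first one not conjugate
into the associated subgroups. -/
theorem conj_base {m m' : G} (hA : ∀ a ∈ A, ¬ IsConj m a) (hB : ∀ b ∈ B, ¬ IsConj m b)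
    (h : IsConj (of m : HNNExtension G A B φ) (of m')) : IsConj m m' := by
  obtain ⟨c, hc⟩ := isConj_iff.1 h
  have h1 : (of m : HNNExtension G A B φ) • mk φ 1 = mk φ 1 := by
    rw [smul_mk, mul_one]
    exact ((mk_eq φ).2 ⟨m, by rw [one_mul]⟩).symm
  have h2 : (of m : HNNExtension G A B φ) • mk φ c⁻¹ = mk φ c⁻¹ := by
    rw [smul_mk]
    have h3 : (of m : HNNExtension G A B φ) * c⁻¹ = c⁻¹ * of m' := by
      rw [← hc]
      group
    rw [h3]
    exact ((mk_eq φ).2 ⟨m', rfl⟩).symm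
  have h4 := fix_eq (isTree φ) (hadj φ) h1 (noEdge φ hA hB) h2
  obtain ⟨g, hg⟩ := (mk_eq φ).1 h4
  have h5 : c = of g := by
    have h6 : (1 : HNNExtension G A B φ) = c⁻¹ * of g := hg
    rw [eq_comm, inv_mul_eq_one] at h6
    exact h6
  refine isConj_iff.2 ⟨g, HNNExtension.of_injective (φ := φ) ?_⟩
  rw [map_mul, map_mul, map_inv, ← h5, hc]

end Vale.Agent.P184.H11.HnnConj
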