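import Vale.Agent.P184.H11.Hnn
import Vale.Agent.P184.H290.Loc

/-!
# P184: HNN extensions over locally finite subgroups
-/

namespace Vale.Agent.P184.H11.HnnLoc

open Vale.Agent.P184 HNNExtension Monoid

universe u

variable {G : Type u} [Group G] {A B : Subgroup G} (φ : A ≃* B)

/-- the associated subgroup `K` in `G` -/
abbrev AK (K : Subgroup A) : Subgroup G := K.map A.subtype

/-- the associated subgroup `φ K` in `G` -/
abbrev BK (K : Subgroup A) : Subgroup G := (K.map φ.toMonoidHom).map B.subtype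

/-- the restricted isomorphism -/
noncomputable def phiK (K : Subgroup A) : AK K ≃* BK φ K :=
  ((K.equivMapOfInjective A.subtype A.subtype_injective).symm.trans
    (K.equivMapOfInjective φ.toMonoidHom φ.injective)).trans
      ((K.map φ.toMonoidHom).equivMapOfInjective B.subtype B.subtype_injective)

theorem phiK_apply (K : Subgroup A) (a : K) :
    ((phiK φ K ⟨((a : A) : G), ⟨a, a.2, rfl⟩⟩ : BK φ K) : G) = φ (a : A) := by
  have h : (⟨((a : A) : G), ⟨a, a.2, rfl⟩⟩ : AK K) =
      K.equivMapOfInjective A.subtype A.subtype_injective a := Subtype.ext rfl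
  rw [h]
  unfold phiK
  rw [MulEquiv.trans_apply, MulEquiv.trans_apply, MulEquiv.symm_apply_apply]
  rfl

/-- the HNN extension over a subgroup of the associated subgroup -/
abbrev HK (K : Subgroup A) := HNNExtension G (AK K) (BK φ K) (phiK φ K)

/-- from the free product -/
noncomputable def toHK (K : Subgroup A) : Coprod G (Multiplicative ℤ) →* HK φ K :=
  Coprod.lift of (zpowersHom _ t)

/-- from the free product to the HNN extension -/
noncomputable def toH : Coprod G (Multiplicative ℤ) →* HNNExtension G A B φ :=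
  Coprod.lift of (zpowersHom _ t)

/-- from a smaller HNN extension -/
noncomputable def fromHK (K : Subgroup A) : HK φ K →* HNNExtension G A B φ :=
  lift of t fun a => by
    obtain ⟨_, ⟨x, hx, rfl⟩⟩ := a
    have h := phiK_apply φ K ⟨x, hx⟩
    exact (t_mul_of x).trans (congrArg (fun z : G => (of z * t : HNNExtension G A B φ)) h.symm)

theorem fromHK_toHK (K : Subgroup A) (x : Coprod G (Multiplicative ℤ)) :
    fromHK φ K (toHK φ K x) = toH φ x := by
  have h : (fromHK φ K).comp (toHK φ K) = toH φ := by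
    refine Coprod.hom_ext ?_ ?_
    · refine MonoidHom.ext fun g => ?_
      simp [fromHK, toHK, toH]
    · refine MonoidHom.ext_mint ?_
      simp [fromHK, toHK, toH]
  exact DFunLike.congr_fun h x

theorem toH_surjective : Function.Surjective (toH φ) := by
  intro x
  induction x using HNNExtension.induction_on with
  | of g => exact ⟨Coprod.inl g, by simp [toH]⟩
  | t => exact ⟨Coprod.inr (Multiplicative.ofAdd 1), by simp [toH]⟩
  | mul x y hx hy =>
    obtain ⟨a, rfl⟩ := hx
    obtain ⟨b, rfl⟩ := hy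
    exact ⟨a * b, map_mul _ _ _⟩
  | inv x hx =>
    obtain ⟨a, rfl⟩ := hx
    exact ⟨a⁻¹, map_inv _ _⟩

/-- the elements killed at a finite stage -/
def Kill : Subgroup (Coprod G (Multiplicative ℤ)) where
  carrier := {w | ∃ T : Finset A, ∀ K : Subgroup A, (∀ x ∈ T, x ∈ K) → toHK φ K w = 1}
  one_mem' := ⟨∅, fun K _ => map_one _⟩
  mul_mem' := by
    classical
    rintro a b ⟨S, hS⟩ ⟨T, hT⟩
    refine ⟨S ∪ T, fun K hK => ?_⟩
    rw [map_mul, hS K fun x hx => hK x (Finset.mem_union_left _ hx),
      hT K fun x hx => hK x (Finset.mem_union_right _ hx), one_mul]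
  inv_mem' := by
    rintro a ⟨S, hS⟩
    refine ⟨S, fun K hK => ?_⟩
    rw [map_inv, hS K hK, inv_one]

theorem mem_Kill {w : Coprod G (Multiplicative ℤ)} : w ∈ Kill φ ↔
    ∃ T : Finset A, ∀ K : Subgroup A, (∀ x ∈ T, x ∈ K) → toHK φ K w = 1 := Iff.rfl

instance : (Kill φ).Normal := ⟨by
  rintro a ⟨S, hS⟩ g
  refine ⟨S, fun K hK => ?_⟩
  rw [map_mul, map_mul, hS K hK, mul_one, map_inv, mul_inv_cancel]⟩

/-- the map back to the quotient -/
noncomputable def back : HNNExtension G A B φ →* Coprod G (Multiplicative ℤ) ⧸ Kill φ :=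
  lift ((QuotientGroup.mk' (Kill φ)).comp Coprod.inl)
    (QuotientGroup.mk' (Kill φ) (Coprod.inr (Multiplicative.ofAdd 1))) fun a => by
      rw [MonoidHom.comp_apply, MonoidHom.comp_apply, ← map_mul, ← map_mul]
      refine (QuotientGroup.eq).2 ?_
      rw [mem_Kill]
      refine ⟨{a}, fun K hK => ?_⟩
      have ha : a ∈ K := hK a (Finset.mem_singleton_self a)
      have h := t_mul_of (φ := phiK φ K) ⟨(a : G), ⟨a, ha, rfl⟩⟩
      rw [phiK_apply φ K ⟨a, ha⟩] at h
      rw [map_mul, map_inv, inv_mul_eq_one]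
      simpa [toHK] using h

theorem mem_Kill_of {w : Coprod G (Multiplicative ℤ)} (hw : toH φ w = 1) : w ∈ Kill φ := by
  have h : (back φ).comp (toH φ) = QuotientGroup.mk' (Kill φ) := by
    refine Coprod.hom_ext ?_ ?_
    · refine MonoidHom.ext fun g => ?_
      simp [back, toH]
    · refine MonoidHom.ext_mint ?_
      simp [back, toH]
  have h1 := DFunLike.congr_fun h w
  rw [MonoidHom.comp_apply, hw, map_one] at h1
  exact (QuotientGroup.eq_one_iff w).1 h1.symm

/-- **Directed unions of associated subgroups.** -/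
theorem hnn_local
    (h : ∀ T : Finset A, ∃ K : Subgroup A, (∀ x ∈ T, x ∈ K) ∧ L1Bass (HK φ K)) :
    L1Bass (HNNExtension G A B φ) := by
  classical
  refine H290.l1Bass_of_quot.{u, u} (toH φ) (toH_surjective φ) fun W hW => ?_
  have h1 : ∀ w ∈ W, ∃ T : Finset A, ∀ K : Subgroup A, (∀ x ∈ T, x ∈ K) → toHK φ K w = 1 :=
    fun w hw => mem_Kill_of φ (hW w hw)
  choose! T hT using h1
  obtain ⟨K, hK1, hK2⟩ := h (W.biUnion T)
  exact ⟨HK φ K, inferInstance, toHK φ K, fromHK φ K, fromHK_toHK φ K,
    fun w hw => hT w hw K fun x hx => hK1 x (Finset.mem_biUnion.2 ⟨w, hw, hx⟩), hK2⟩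

/-- **HNN extensions over locally finite subgroups.** -/
theorem hnn_locFinite (hA : ∀ T : Finset A, Finite (Subgroup.closure (T : Set A)))
    (h : L1Bass G) : L1Bass (HNNExtension G A B φ) := by
  refine hnn_local φ fun T => ⟨Subgroup.closure (T : Set A),
    fun x hx => Subgroup.subset_closure hx, ?_⟩
  have h1 := hA T
  have h2 : Finite (AK (Subgroup.closure (T : Set A))) :=
    Finite.of_equiv _ ((Subgroup.closure (T : Set A)).equivMapOfInjective A.subtype
      A.subtype_injective).toEquiv
  exact (Hnn.hnn_finite (phiK φ (Subgroup.closure (T : Set A)))).2 h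

end Vale.Agent.P184.H11.HnnLoc
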