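import Vale.Agent.P184.H11.HnnConj

/-!
# P184: a retract of the base group of an HNN extension over subgroups which a homomorphism detects
-/

namespace Vale.Agent.P184.H11.HnnSub

open Vale.Agent.P184 HNNExtension

universe u v w

/-- **Conjugacy is detected.**  `K` is a retract of `M`, `p` kills `K` and is injective on the
associated subgroups `A` and `B`.  Then elements of `K` which are conjugate in the HNN extension
are conjugate in `K`. -/
theorem conj_sub {K : Type v} {M : Type u} {P : Type w} [Group K] [Group M] [Group P]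
    (i : K →* M) (r : M →* K) (hri : ∀ k, r (i k) = k) (p : M →* P) (hpi : ∀ k, p (i k) = 1)
    {A B : Subgroup M} (hA : ∀ a ∈ A, p a = 1 → a = 1) (hB : ∀ b ∈ B, p b = 1 → b = 1)
    (φ : A ≃* B) {k k' : K} (hk : k ≠ 1)
    (h : IsConj (of (i k) : HNNExtension M A B φ) (of (i k'))) : IsConj k k' := by
  have hik : i k ≠ 1 := fun h1 => hk (by rw [← hri k, h1, map_one])
  have key : ∀ C : Subgroup M, (∀ a ∈ C, p a = 1 → a = 1) → ∀ a ∈ C, ¬ IsConj (i k) a := by
    intro C hC a ha hc
    obtain ⟨c, rfl⟩ := isConj_iff.1 hc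
    have h1 : p (c * i k * c⁻¹) = 1 := by
      rw [map_mul, map_mul, hpi, mul_one, map_inv, mul_inv_cancel]
    have h2 := hC _ ha h1
    rw [mul_inv_eq_one, mul_eq_left] at h2
    exact hik h2
  obtain ⟨c, hc⟩ := isConj_iff.1 (HnnConj.conj_base φ (key A hA) (key B hB) h)
  refine isConj_iff.2 ⟨r c, ?_⟩
  rw [← hri k', ← hc, map_mul, map_mul, map_inv, hri]

/-- Q1 passes from the HNN extension to `K`. -/
theorem l1Bass_sub {K : Type v} {M : Type u} {P : Type w} [Group K] [Group M] [Group P]
    (i : K →* M) (r : M →* K) (hri : ∀ k, r (i k) = k) (p : M →* P) (hpi : ∀ k, p (i k) = 1)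
    {A B : Subgroup M} (hA : ∀ a ∈ A, p a = 1 → a = 1) (hB : ∀ b ∈ B, p b = 1 → b = 1)
    (φ : A ≃* B) (h : L1Bass (HNNExtension M A B φ)) : L1Bass K := by
  classical
  refine H290.l1Bass_of_inj ((of : M →* HNNExtension M A B φ).comp i) ?_
    {ConjClasses.mk 1} (Set.finite_singleton _) ?_ ?_ h
  · intro a b hab
    have h1 : i a = i b := HNNExtension.of_injective (φ := φ) hab
    rw [← hri a, h1, hri]
  · rintro C rfl
    exact isTorsionClass_mk.mpr IsOfFinOrder.one
  · intro x y hx hxy
    refine conj_sub i r hri p hpi hA hB φ ?_ hxy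
    rintro rfl
    exact hx rfl

end Vale.Agent.P184.H11.HnnSub
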