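import Vale.Agent.P184.H788.Alg
import Vale.Agent.P184.H788.Rep
import Vale.Agent.P184.H856.POp

/-!
# P184: localisation of the difference of two representations, approximation
-/

noncomputable section

namespace Vale.Agent.P184.H11.LocB

open Vale.Agent.P184 (IsIdem tau toFn)
open Vale.Agent.P184.H13 (E dl co E_ext dl_apply sm sm_nonneg)
open Vale.Agent.P184.H788 (LC lamS Tm Tm_dl norm_Tm ev sm_summable Tm_summable eqv_at eqv_lamS)
open Vale.Agent.P184.H856

universe u v w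

section Gen

variable {Y : Type u} {L : Type v}

/-- the factors `A` and `1 - A` -/
def fac (A : E (Y × L) →L[ℂ] E (Y × L)) (b : Bool) : E (Y × L) →L[ℂ] E (Y × L) :=
  if b then A else 1 - A

/-- the difference of the conjugated idempotent and the base projection -/
def nf (A K : E (Y × L) →L[ℂ] E (Y × L)) :
    E ((Bool × Y) × L) →L[ℂ] E ((Bool × Y) × L) :=
  blk true true (A * K * A) + blk true false (A * K * (1 - A)) +
    blk false true ((1 - A) * K * A) + blk false false ((1 - A) * K * (1 - A))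

theorem nf_entry [Group L] (A K : E (Y × L) →L[ℂ] E (Y × L)) (b c : Bool) (y z : Y) (l : L) :
    nf A K (dl ((b, y), 1)) ((c, z), l) = (fac A c * K * fac A b) (dl (y, 1)) (z, l) := by
  have h : nf A K (dl ((b, y), 1)) ((c, z), l) =
      blk true true (A * K * A) (dl ((b, y), 1)) ((c, z), l) +
      blk true false (A * K * (1 - A)) (dl ((b, y), 1)) ((c, z), l) +
      blk false true ((1 - A) * K * A) (dl ((b, y), 1)) ((c, z), l) +
      blk false false ((1 - A) * K * (1 - A)) (dl ((b, y), 1)) ((c, z), l) := rfl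
  rw [h]
  cases b <;> cases c
  · rw [blk_entry_ne true true _ false false (Or.inl Bool.noConfusion),
      blk_entry_ne true false _ false false (Or.inl Bool.noConfusion),
      blk_entry_ne false true _ false false (Or.inr Bool.noConfusion), blk_entry_same]
    simp [fac]
  · rw [blk_entry_ne true true _ true false (Or.inr Bool.noConfusion), blk_entry_same,
      blk_entry_ne false true _ true false (Or.inl Bool.noConfusion),
      blk_entry_ne false false _ true false (Or.inl Bool.noConfusion)]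
    simp [fac]
  · rw [blk_entry_ne true true _ false true (Or.inl Bool.noConfusion),
      blk_entry_ne true false _ false true (Or.inl Bool.noConfusion), blk_entry_same,
      blk_entry_ne false false _ false true (Or.inr Bool.noConfusion)]
    simp [fac]
  · rw [blk_entry_same, blk_entry_ne true false _ true true (Or.inr Bool.noConfusion),
      blk_entry_ne false true _ true true (Or.inl Bool.noConfusion),
      blk_entry_ne false false _ true true (Or.inl Bool.noConfusion)]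
    simp [fac]

theorem eqv_nf [Group L] {A K : E (Y × L) →L[ℂ] E (Y × L)} (hA : Eqv A) (hK : Eqv K) :
    Eqv (nf A K) := by
  have h1 : Eqv (1 - A) := eqv_sub eqv_one hA
  exact eqv_add (eqv_add (eqv_add (eqv_blk _ _ (eqv_mul (eqv_mul hA hK) hA))
    (eqv_blk _ _ (eqv_mul (eqv_mul hA hK) h1))) (eqv_blk _ _ (eqv_mul (eqv_mul h1 hK) hA)))
    (eqv_blk _ _ (eqv_mul (eqv_mul h1 hK) h1))

theorem eqv_fac [Group L] {A : E (Y × L) →L[ℂ] E (Y × L)} (hA : Eqv A) (b : Bool) :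
    Eqv (fac A b) := by
  cases b
  · exact eqv_sub eqv_one hA
  · exact hA

theorem norm_blk_le (b c : Bool) (T : E (Y × L) →L[ℂ] E (Y × L)) : ‖blk b c T‖ ≤ ‖T‖ := by
  have h1 : ‖(io b : E (Y × L) →L[ℂ] E ((Bool × Y) × L))‖ ≤ 1 :=
    LinearMap.mkContinuous_norm_le _ zero_le_one _
  have h2 : ‖(pi2 c : E ((Bool × Y) × L) →L[ℂ] E (Y × L))‖ ≤ 1 :=
    LinearMap.mkContinuous_norm_le _ zero_le_one _
  calc ‖blk b c T‖ ≤ ‖(io b : E (Y × L) →L[ℂ] E ((Bool × Y) × L))‖ *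
        ‖T.comp (pi2 c : E ((Bool × Y) × L) →L[ℂ] E (Y × L))‖ :=
        ContinuousLinearMap.opNorm_comp_le _ _
    _ ≤ 1 * (‖T‖ * 1) := mul_le_mul h1 ((ContinuousLinearMap.opNorm_comp_le _ _).trans
        (mul_le_mul_of_nonneg_left h2 (norm_nonneg _))) (norm_nonneg _) zero_le_one
    _ = ‖T‖ := by ring

theorem norm_triple {a k b a' k' b' : E (Y × L) →L[ℂ] E (Y × L)} {M η : ℝ}
    (ha : ‖a‖ ≤ M) (hk : ‖k‖ ≤ M) (hb' : ‖b'‖ ≤ M) (hk' : ‖k'‖ ≤ M) (h1 : ‖a - a'‖ ≤ η)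
    (h2 : ‖k - k'‖ ≤ η) (h3 : ‖b - b'‖ ≤ η) :
    ‖a * k * b - a' * k' * b'‖ ≤ 3 * M ^ 2 * η := by
  have hM : 0 ≤ M := (norm_nonneg _).trans ha
  have hη : 0 ≤ η := (norm_nonneg _).trans h1
  have e : a * k * b - a' * k' * b' =
      a * k * (b - b') + a * (k - k') * b' + (a - a') * k' * b' := by noncomm_ring
  rw [e]
  have n1 : ‖a * k * (b - b')‖ ≤ M * M * η :=
    (norm_mul_le _ _).trans (mul_le_mul ((norm_mul_le _ _).trans
      (mul_le_mul ha hk (norm_nonneg _) hM)) h3 (norm_nonneg _) (mul_nonneg hM hM))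
  have n2 : ‖a * (k - k') * b'‖ ≤ M * η * M :=
    (norm_mul_le _ _).trans (mul_le_mul ((norm_mul_le _ _).trans
      (mul_le_mul ha h2 (norm_nonneg _) hM)) hb' (norm_nonneg _) (mul_nonneg hM hη))
  have n3 : ‖(a - a') * k' * b'‖ ≤ η * M * M :=
    (norm_mul_le _ _).trans (mul_le_mul ((norm_mul_le _ _).trans
      (mul_le_mul h1 hk' (norm_nonneg _) hη)) hb' (norm_nonneg _) (mul_nonneg hη hM))
  calc _ ≤ M * M * η + M * η * M + η * M * M :=
        (norm_add_le _ _).trans (add_le_add ((norm_add_le _ _).trans (add_le_add n1 n2)) n3)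
    _ = 3 * M ^ 2 * η := by ring

theorem norm_nf_sub {A K A' K' : E (Y × L) →L[ℂ] E (Y × L)} {M η : ℝ}
    (hA : ‖A‖ ≤ M) (hA1 : ‖1 - A‖ ≤ M) (hA' : ‖A'‖ ≤ M) (hA1' : ‖1 - A'‖ ≤ M)
    (hK : ‖K‖ ≤ M) (hK' : ‖K'‖ ≤ M) (h1 : ‖A - A'‖ ≤ η) (h2 : ‖K - K'‖ ≤ η) :
    ‖nf A K - nf A' K'‖ ≤ 12 * M ^ 2 * η := by
  have h3 : ‖(1 - A) - (1 - A')‖ ≤ η := by
    have : (1 - A) - (1 - A') = -(A - A') := by abel
    rw [this, norm_neg]
    exact h1
  have e : nf A K - nf A' K' = blk true true (A * K * A - A' * K' * A') +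
      blk true false (A * K * (1 - A) - A' * K' * (1 - A')) +
      blk false true ((1 - A) * K * A - (1 - A') * K' * A') +
      blk false false ((1 - A) * K * (1 - A) - (1 - A') * K' * (1 - A')) := by
    unfold nf
    rw [← blk_sub, ← blk_sub, ← blk_sub, ← blk_sub]
    abel
  rw [e]
  have n1 := (norm_blk_le true true (A * K * A - A' * K' * A')).trans
    (norm_triple hA hK hA' hK' h1 h2 h1)
  have n2 := (norm_blk_le true false (A * K * (1 - A) - A' * K' * (1 - A'))).trans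
    (norm_triple hA hK hA1' hK' h1 h2 h3)
  have n3 := (norm_blk_le false true ((1 - A) * K * A - (1 - A') * K' * A')).trans
    (norm_triple hA1 hK hA' hK' h3 h2 h1)
  have n4 := (norm_blk_le false false ((1 - A) * K * (1 - A) - (1 - A') * K' * (1 - A'))).trans
    (norm_triple hA1 hK hA1' hK' h3 h2 h3)
  calc _ ≤ 3 * M ^ 2 * η + 3 * M ^ 2 * η + 3 * M ^ 2 * η + 3 * M ^ 2 * η :=
        (norm_add_le _ _).trans (add_le_add ((norm_add_le _ _).trans (add_le_add
          ((norm_add_le _ _).trans (add_le_add n1 n2)) n3)) n4)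
    _ = 12 * M ^ 2 * η := by ring

theorem entry_mul [Group L] {K T : E (Y × L) →L[ℂ] E (Y × L)} (eK : Eqv K) {y z : Y} {l : L}
    (h : (K * T) (dl (y, 1)) (z, l) ≠ 0) :
    ∃ w m, T (dl (y, 1)) (w, m) ≠ 0 ∧ K (dl (w, 1)) (z, l * m⁻¹) ≠ 0 := by
  by_contra h2
  refine h ?_
  rw [← (mul_entry K T (y, 1) (z, l)).tsum_eq]
  refine (tsum_congr fun r => ?_).trans tsum_zero
  obtain ⟨w, m⟩ := r
  by_cases h3 : T (dl (y, 1)) (w, m) = 0
  · rw [h3, zero_mul]
  · by_cases h4 : K (dl (w, 1)) (z, l * m⁻¹) = 0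
    · rw [eqv_at eK, h4, mul_zero]
    · exact absurd ⟨w, m, h3, h4⟩ h2

end Gen

section Rep

variable {G : Type u} [Group G] {q : ℕ} {e : Matrix (Fin q) (Fin q) (G → ℂ)}
variable {X : Type v} {L : Type w} [MulAction G X] [Group L]

/-- the truncated operator -/
def tru (α : LC G X L) (T : Finset G) (e : Matrix (Fin q) (Fin q) (G → ℂ)) :
    E ((X × Fin q) × L) →L[ℂ] E ((X × Fin q) × L) := ∑ g ∈ T, Tm α Set.univ g (toFn e g)

theorem tru_dl (α : LC G X L) (T : Finset G) (p r : (X × Fin q) × L) :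
    tru α T e (dl p) r = ∑ g ∈ T, Tm α Set.univ g (toFn e g) (dl p) r := by
  have h := map_sum (ev p r) (fun g => Tm α Set.univ g (toFn e g)) T
  exact h

theorem eqv_tru (α : LC G X L) (T : Finset G) : Eqv (tru α T e) := by
  classical
  intro y l z a m
  rw [tru_dl, tru_dl]
  refine Finset.sum_congr rfl fun g _ => ?_
  obtain ⟨x, j⟩ := y
  obtain ⟨z, i⟩ := z
  rw [Tm_dl, Tm_dl]
  by_cases h : x ∈ Set.univ ∧ g • x = z ∧ α.a g x * l = a
  · rw [if_pos h, if_pos ⟨h.1, h.2.1, by rw [← mul_assoc, h.2.2]⟩]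
  · rw [if_neg h, if_neg fun h2 => h ⟨h2.1, h2.2.1, mul_right_cancel
      ((mul_assoc _ _ _).trans h2.2.2)⟩]

theorem tru_entry {α : LC G X L} {T : Finset G} {x z : X} {j i : Fin q} {l : L}
    (h : tru α T e (dl ((x, j), 1)) ((z, i), l) ≠ 0) :
    ∃ g ∈ T, g • x = z ∧ α.a g x = l := by
  classical
  by_contra h2
  refine h ?_
  rw [tru_dl]
  refine Finset.sum_eq_zero fun g hg => ?_
  rw [Tm_dl, if_neg]
  rintro ⟨-, h4, h5⟩
  exact h2 ⟨g, hg, h4, by rwa [mul_one] at h5⟩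

theorem dif_entry {α α' : LC G X L} {T : Finset G} {x z : X} {j i : Fin q} {l : L}
    (h : (tru α T e - tru α' T e) (dl ((x, j), 1)) ((z, i), l) ≠ 0) :
    ∃ g ∈ T, g • x = z ∧ α.a g x ≠ α'.a g x ∧ (α.a g x = l ∨ α'.a g x = l) := by
  classical
  by_contra h2
  refine h ?_
  change tru α T e (dl ((x, j), 1)) ((z, i), l) - tru α' T e (dl ((x, j), 1)) ((z, i), l) = 0
  rw [tru_dl, tru_dl, sub_eq_zero]
  refine Finset.sum_congr rfl fun g hg => ?_
  rw [Tm_dl, Tm_dl]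
  by_cases h3 : g • x = z
  · by_cases h4 : α.a g x = α'.a g x
    · rw [h4]
    · rw [if_neg, if_neg]
      · rintro ⟨-, -, h5⟩
        exact h2 ⟨g, hg, h3, h4, Or.inr (by rwa [mul_one] at h5)⟩
      · rintro ⟨-, -, h5⟩
        exact h2 ⟨g, hg, h3, h4, Or.inl (by rwa [mul_one] at h5)⟩
  · rw [if_neg fun h5 => h3 h5.2.1, if_neg fun h5 => h3 h5.2.1]

theorem fac_entry {α : LC G X L} {T : Finset G} (hT : 1 ∈ T) (b : Bool) {x z : X}
    {j i : Fin q} {l : L} (h : fac (tru α T e) b (dl ((x, j), 1)) ((z, i), l) ≠ 0) :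
    ∃ g ∈ T, g • x = z ∧ α.a g x = l := by
  classical
  cases b
  · by_cases h1 : tru α T e (dl ((x, j), 1)) ((z, i), l) = 0
    · have h2 : (dl ((x, j), 1) : E ((X × Fin q) × L)) ((z, i), l) ≠ 0 := by
        intro h3
        refine h ?_
        change (dl ((x, j), 1) : E ((X × Fin q) × L)) ((z, i), l) -
          tru α T e (dl ((x, j), 1)) ((z, i), l) = 0
        rw [h1, h3, sub_zero]
      rw [dl_apply] at h2
      have h3 : (((z, i), l) : (X × Fin q) × L) = ((x, j), 1) := by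
        by_contra h4
        exact h2 (if_neg h4)
      obtain ⟨h4, h5⟩ := Prod.mk.inj h3
      obtain ⟨h6, -⟩ := Prod.mk.inj h4
      exact ⟨1, hT, by rw [one_smul, h6], by rw [α.one, h5]⟩
    · exact tru_entry h1
  · exact tru_entry h

theorem norm_sub_tru (he : IsIdem e) (α : LC G X L) (T : Finset G) :
    ‖lamS α (fun _ => Set.univ) e - tru α T e‖ ≤
      ∑' g, sm (toFn e g) - ∑ g ∈ T, sm (toFn e g) := by
  have h1 := (Tm_summable α (fun _ => Set.univ) he).sum_add_tsum_compl (s := T)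
  have h3 := (sm_summable he).sum_add_tsum_compl (s := T)
  have h2 : lamS α (fun _ => Set.univ) e - tru α T e =
      ∑' x : ((T : Set G)ᶜ : Set G), Tm α Set.univ (x : G) (toFn e x) := by
    rw [sub_eq_iff_eq_add']
    exact h1.symm
  rw [h2]
  have h4 : Summable fun x : ((T : Set G)ᶜ : Set G) => sm (toFn e (x : G)) :=
    (sm_summable he).subtype _
  have h5 : Summable fun x : ((T : Set G)ᶜ : Set G) => ‖Tm α Set.univ (x : G) (toFn e x)‖ :=
    Summable.of_nonneg_of_le (fun _ => norm_nonneg _) (fun x => norm_Tm α _ _ _) h4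
  have h6 := (norm_tsum_le_tsum_norm h5).trans (h5.tsum_le_tsum (fun x => norm_Tm α _ _ _) h4)
  linarith

theorem norm_tru (he : IsIdem e) (α : LC G X L) (T : Finset G) :
    ‖tru α T e‖ ≤ ∑' g, sm (toFn e g) :=
  ((norm_sum_le _ _).trans (Finset.sum_le_sum fun g _ => norm_Tm α _ g _)).trans
    ((sm_summable he).sum_le_tsum T fun _ _ => sm_nonneg _)

theorem norm_lam (he : IsIdem e) (α : LC G X L) :
    ‖lamS α (fun _ => Set.univ) e‖ ≤ ∑' g, sm (toFn e g) := by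
  have h := norm_sub_tru he α ∅
  have h1 : tru α ∅ e = 0 := Finset.sum_empty
  rwa [h1, sub_zero, Finset.sum_empty, sub_zero] at h

/-- supported in a corner -/
def Corner (F : Set X) (N : Subgroup L)
    (S : E ((Bool × (X × Fin q)) × L) →L[ℂ] E ((Bool × (X × Fin q)) × L)) : Prop :=
  ∀ (b c : Bool) (x z : X) (i j : Fin q) (l : L),
    S (dl ((b, (x, i)), 1)) ((c, (z, j)), l) ≠ 0 → x ∈ F ∧ z ∈ F ∧ l ∈ N

theorem corner_nf {α α' : LC G X L} {T : Finset G} (hT : 1 ∈ T) {F : Set X} {N : Subgroup L}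
    (h1 : ∀ g ∈ T, ∀ x ∈ F, g • x ∈ F → α.a g x ∈ N ∧ α'.a g x ∈ N)
    (h2 : ∀ g₁ ∈ T, ∀ g₂ ∈ T, ∀ g₃ ∈ T, ∀ x : X, α.a g₂ (g₁ • x) ≠ α'.a g₂ (g₁ • x) →
      x ∈ F ∧ g₁ • x ∈ F ∧ g₂ • g₁ • x ∈ F ∧ g₃ • g₂ • g₁ • x ∈ F) :
    Corner F N (nf (tru α' T e) (tru α T e - tru α' T e)) := by
  intro b c x z i j l h
  rw [nf_entry] at h
  have e1 : Eqv (fac (tru α' T e) c * (tru α T e - tru α' T e)) :=
    eqv_mul (eqv_fac (eqv_tru α' T) c) (eqv_sub (eqv_tru α T) (eqv_tru α' T))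
  obtain ⟨⟨w, i1⟩, m, h3, h4⟩ := entry_mul e1 h
  obtain ⟨⟨w', i2⟩, m', h5, h6⟩ := entry_mul (eqv_fac (eqv_tru α' T) c) h4
  obtain ⟨g1, hg1, rfl, rfl⟩ := fac_entry hT b h3
  obtain ⟨g2, hg2, rfl, hne, hm'⟩ := dif_entry h5
  obtain ⟨g3, hg3, rfl, h7⟩ := fac_entry hT c h6
  obtain ⟨hx, hx1, hx2, hx3⟩ := h2 g1 hg1 g2 hg2 g3 hg3 x hne
  refine ⟨hx, hx3, ?_⟩
  have n1 : α'.a g1 x ∈ N := (h1 g1 hg1 x hx hx1).2
  have n2 : m' ∈ N := by
    rcases hm' with rfl | rfl
    · exact (h1 g2 hg2 _ hx1 hx2).1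
    · exact (h1 g2 hg2 _ hx1 hx2).2
  have n3 : l * (α'.a g1 x)⁻¹ * m'⁻¹ ∈ N := by
    rw [← h7]
    exact (h1 g3 hg3 _ hx2 hx3).2
  have n4 := N.mul_mem (N.mul_mem n3 n2) n1
  rwa [inv_mul_cancel_right, inv_mul_cancel_right] at n4

omit [Group L] in
theorem norm_one_le : ‖(1 : E ((X × Fin q) × L) →L[ℂ] E ((X × Fin q) × L))‖ ≤ 1 :=
  ContinuousLinearMap.norm_id_le

end Rep

/-- **Localisation, approximation.** -/
theorem locB {G : Type u} [Group G] {q : ℕ} {e : Matrix (Fin q) (Fin q) (G → ℂ)}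
    (he : IsIdem e) {δ : ℝ} (hδ : 0 < δ) : ∃ T : Finset G, 1 ∈ T ∧
      ∀ (X : Type v) (L : Type w) [MulAction G X] [Group L] (α α' : LC G X L) (F : Set X)
        (N : Subgroup L), (∀ g ∈ T, ∀ x ∈ F, g • x ∈ F → α.a g x ∈ N ∧ α'.a g x ∈ N) →
        (∀ g₁ ∈ T, ∀ g₂ ∈ T, ∀ g₃ ∈ T, ∀ x : X, α.a g₂ (g₁ • x) ≠ α'.a g₂ (g₁ • x) →
          x ∈ F ∧ g₁ • x ∈ F ∧ g₂ • g₁ • x ∈ F ∧ g₃ • g₂ • g₁ • x ∈ F) →
        ∃ S : E ((Bool × (X × Fin q)) × L) →L[ℂ] E ((Bool × (X × Fin q)) × L),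
          Eqv S ∧ Corner F N S ∧
          ‖nf (lamS α' (fun _ => Set.univ) e)
            (lamS α (fun _ => Set.univ) e - lamS α' (fun _ => Set.univ) e) - S‖ ≤ δ := by
  classical
  set m : ℝ := ∑' g, sm (toFn e g) with hm
  have hm0 : 0 ≤ m := tsum_nonneg fun _ => sm_nonneg _
  set M : ℝ := 2 * m + 1 with hM
  have hM1 : 1 ≤ M := by linarith
  have hη : 0 < δ / (24 * M ^ 2) := div_pos hδ (by positivity)
  obtain ⟨T₀, hT₀⟩ := ((tendsto_order.1 (sm_summable he).hasSum).1 _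
    (sub_lt_self (∑' g, sm (toFn e g)) hη)).exists
  refine ⟨insert 1 T₀, Finset.mem_insert_self _ _, ?_⟩
  intro X L _ _ α α' F N h1 h2
  set T := insert 1 T₀ with hT
  have hsum : ∑' g, sm (toFn e g) - ∑ g ∈ T, sm (toFn e g) ≤ δ / (24 * M ^ 2) := by
    have h3 : ∑ g ∈ T₀, sm (toFn e g) ≤ ∑ g ∈ T, sm (toFn e g) :=
      Finset.sum_le_sum_of_subset_of_nonneg (Finset.subset_insert _ _)
        fun _ _ _ => sm_nonneg _
    linarith
  have a1 := (norm_sub_tru he α T).trans hsum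
  have a2 := (norm_sub_tru he α' T).trans hsum
  have b1 := norm_lam he α
  have b2 := norm_lam he α'
  have c1 := norm_tru he α T
  have c2 := norm_tru he α' T
  rw [← hm] at b1 b2 c1 c2
  have o1 : ‖(1 : E ((X × Fin q) × L) →L[ℂ] E ((X × Fin q) × L))‖ ≤ 1 := norm_one_le
  refine ⟨nf (tru α' T e) (tru α T e - tru α' T e),
    eqv_nf (eqv_tru α' T) (eqv_sub (eqv_tru α T) (eqv_tru α' T)),
    corner_nf (Finset.mem_insert_self _ _) h1 h2, ?_⟩
  have key := norm_nf_sub (A := lamS α' (fun _ => Set.univ) e)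
    (K := lamS α (fun _ => Set.univ) e - lamS α' (fun _ => Set.univ) e)
    (A' := tru α' T e) (K' := tru α T e - tru α' T e) (M := M) (η := 2 * (δ / (24 * M ^ 2)))
    (by linarith) ((norm_sub_le _ _).trans (by linarith)) (by linarith)
    ((norm_sub_le _ _).trans (by linarith)) ((norm_sub_le _ _).trans (by linarith))
    ((norm_sub_le _ _).trans (by linarith)) (by linarith)
    (by
      have e1 : lamS α (fun _ => Set.univ) e - lamS α' (fun _ => Set.univ) e -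
          (tru α T e - tru α' T e) = (lamS α (fun _ => Set.univ) e - tru α T e) -
          (lamS α' (fun _ => Set.univ) e - tru α' T e) := by abel
      rw [e1]
      exact (norm_sub_le _ _).trans (by linarith))
  refine key.trans (le_of_eq ?_)
  have hM2 : M ^ 2 ≠ 0 := by positivity
  field_simp
  ring

end Vale.Agent.P184.H11.LocB
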