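import Vale.Agent.P184.H11.LocB
import Vale.Agent.P184.H856.LocC

/-!
# P184: localisation of the difference of two representations, the norm constants
-/

noncomputable section

namespace Vale.Agent.P184.H11.LocB

open Vale.Agent.P184 (IsIdem tau toFn)
open Vale.Agent.P184.H13 (E dl co E_ext dl_apply sm sm_nonneg)
open Vale.Agent.P184.H788 (LC lamS Tm Tm_dl norm_Tm ev sm_summable Tm_summable eqv_at eqv_lamS)
open Vale.Agent.P184.H856

universe u v w

/-- the norm constants: `Z` an idempotent of norm at most `M`, `x` near it -/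
theorem norm_row {R : Type*} [NormedRing R] {Z x : R} {M δ : ℝ} (hZ : Z * Z = Z) (hM : ‖Z‖ ≤ M)
    (h1 : 1 ≤ M) (hd : ‖Z - x‖ ≤ δ) (hδ : δ ≤ 1 / (64 * M ^ 2)) :
    ‖x * x - x‖ ≤ 1 / 16 ∧ 3 * (2 * ‖x‖ + 1) * ‖x * x - x‖ + δ < 1 := by
  have hM0 : 0 < M := by linarith
  have hδ0 : 0 ≤ δ := (norm_nonneg _).trans hd
  have hm : M ^ 2 * δ ≤ 1 / 64 := by
    calc M ^ 2 * δ ≤ M ^ 2 * (1 / (64 * M ^ 2)) := mul_le_mul_of_nonneg_left hδ (by positivity)
      _ = 1 / 64 := by field_simp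
  have hm1 : M * δ ≤ 1 / 64 := by
    have h2 : M * δ ≤ M ^ 2 * δ := mul_le_mul_of_nonneg_right (by nlinarith) hδ0
    linarith
  have hδ1 : δ ≤ 1 / 64 := by
    have h2 : 1 * δ ≤ M * δ := mul_le_mul_of_nonneg_right h1 hδ0
    linarith
  have e : x * x - x = (Z - x) * (Z - x) + (Z - x) - Z * (Z - x) - (Z - x) * Z := by
    have h2 : (Z - x) * (Z - x) + (Z - x) - Z * (Z - x) - (Z - x) * Z =
        x * x - x - (Z * Z - Z) := by noncomm_ring
    rw [h2, hZ, sub_self, sub_zero]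
  have n1 : ‖(Z - x) * (Z - x)‖ ≤ δ * δ :=
    (norm_mul_le _ _).trans (mul_le_mul hd hd (norm_nonneg _) hδ0)
  have n2 : ‖Z * (Z - x)‖ ≤ M * δ :=
    (norm_mul_le _ _).trans (mul_le_mul hM hd (norm_nonneg _) hM0.le)
  have n3 : ‖(Z - x) * Z‖ ≤ δ * M :=
    (norm_mul_le _ _).trans (mul_le_mul hd hM (norm_nonneg _) hδ0)
  have n4 : ‖x * x - x‖ ≤ δ * δ + δ + M * δ + δ * M := by
    rw [e]
    exact (norm_sub_le _ _).trans (add_le_add ((norm_sub_le _ _).trans (add_le_add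
      ((norm_add_le _ _).trans (add_le_add n1 hd)) n2)) n3)
  have n5 : δ * δ + δ + M * δ + δ * M ≤ 4 * (M * δ) := by nlinarith
  have n6 := n4.trans n5
  have n7 : ‖x‖ ≤ M + δ := by
    have h2 : x = Z - (Z - x) := by abel
    rw [h2]
    exact (norm_sub_le _ _).trans (add_le_add hM hd)
  refine ⟨by linarith, ?_⟩
  have n8 : 3 * (2 * ‖x‖ + 1) * ‖x * x - x‖ ≤ 3 * (2 * (M + δ) + 1) * (4 * (M * δ)) :=
    mul_le_mul (by linarith) n6 (norm_nonneg _) (by positivity)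
  nlinarith

/-- **Localisation, the idempotent in the corner.** -/
theorem locBC {G : Type u} [Group G] {q : ℕ} {e : Matrix (Fin q) (Fin q) (G → ℂ)}
    (he : IsIdem e) : ∃ T : Finset G, 1 ∈ T ∧
      ∀ (X : Type v) (L : Type w) [MulAction G X] [Group L] (α α' : LC G X L) (F : Set X)
        (N : Subgroup L), (∀ g ∈ T, ∀ x ∈ F, g • x ∈ F → α.a g x ∈ N ∧ α'.a g x ∈ N) →
        (∀ g₁ ∈ T, ∀ g₂ ∈ T, ∀ g₃ ∈ T, ∀ x : X, α.a g₂ (g₁ • x) ≠ α'.a g₂ (g₁ • x) →
          x ∈ F ∧ g₁ • x ∈ F ∧ g₂ • g₁ • x ∈ F ∧ g₃ • g₂ • g₁ • x ∈ F) →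
        ∀ Z : E ((Bool × (X × Fin q)) × L) →L[ℂ] E ((Bool × (X × Fin q)) × L),
        Z = blk true true 1 + nf (lamS α' (fun _ => Set.univ) e)
            (lamS α (fun _ => Set.univ) e - lamS α' (fun _ => Set.univ) e) →
        Z * Z = Z →
        ∃ S : E ((Bool × (X × Fin q)) × L) →L[ℂ] E ((Bool × (X × Fin q)) × L),
          Eqv S ∧ Corner F N S ∧
          (blk true true 1 + S) * (blk true true 1 + S) = blk true true 1 + S ∧
          ‖Z - (blk true true 1 + S)‖ < 1 := by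
  set m : ℝ := ∑' g, sm (toFn e g) with hm
  have hm0 : 0 ≤ m := tsum_nonneg fun _ => sm_nonneg _
  set M : ℝ := 1 + 4 * (2 * (1 + m) ^ 3) with hM
  have hM1 : 1 ≤ M := by
    have : 0 ≤ 4 * (2 * (1 + m) ^ 3) := by positivity
    linarith
  obtain ⟨T, hT1, hT⟩ := locB.{u, v, w} he (δ := 1 / (64 * M ^ 2)) (by positivity)
  refine ⟨T, hT1, ?_⟩
  intro X L _ _ α α' F N h1 h2 Z hZ hZZ
  obtain ⟨S, eS, cS, dS⟩ := hT X L α α' F N h1 h2
  set A := lamS α' (fun _ => Set.univ) e with hA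
  set K := lamS α (fun _ => Set.univ) e - A with hK
  have a1 : ‖A‖ ≤ 1 + m := (norm_lam he α').trans (by linarith)
  have a2 : ‖1 - A‖ ≤ 1 + m := (norm_sub_le _ _).trans (by
    have := norm_lam he α'
    have := norm_one_le (X := X) (L := L) (q := q)
    linarith)
  have a3 : ‖K‖ ≤ 2 * (1 + m) := (norm_sub_le _ _).trans (by
    have := norm_lam he α'
    have := norm_lam he α
    linarith)
  have hm1 : 0 ≤ 1 + m := by linarith
  have tri : ∀ a b : E ((X × Fin q) × L) →L[ℂ] E ((X × Fin q) × L), ‖a‖ ≤ 1 + m → ‖b‖ ≤ 1 + m →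
      ∀ c d : Bool, ‖blk c d (a * K * b)‖ ≤ 2 * (1 + m) ^ 3 := by
    intro a b ha hb c d
    refine (norm_blk_le c d _).trans ((norm_mul_le _ _).trans ?_)
    have := mul_le_mul ((norm_mul_le a K).trans (mul_le_mul ha a3 (norm_nonneg _) hm1)) hb
      (norm_nonneg _) (by positivity)
    exact this.trans (le_of_eq (by ring))
  have nZ : ‖Z‖ ≤ M := by
    rw [hZ]
    refine (norm_add_le _ _).trans (add_le_add ((norm_blk_le true true _).trans norm_one_le) ?_)
    unfold nf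
    calc _ ≤ 2 * (1 + m) ^ 3 + 2 * (1 + m) ^ 3 + 2 * (1 + m) ^ 3 + 2 * (1 + m) ^ 3 :=
          (norm_add_le _ _).trans (add_le_add ((norm_add_le _ _).trans (add_le_add
            ((norm_add_le _ _).trans (add_le_add (tri A A a1 a1 true true)
              (tri A (1 - A) a1 a2 true false))) (tri (1 - A) A a2 a1 false true)))
              (tri (1 - A) (1 - A) a2 a2 false false))
      _ = 4 * (2 * (1 + m) ^ 3) := by ring
  have dx : ‖Z - (blk true true 1 + S)‖ ≤ 1 / (64 * M ^ 2) := by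
    rw [hZ, add_sub_add_left_eq_sub]
    exact dS
  obtain ⟨b1, b2⟩ := norm_row hZZ nZ hM1 dx le_rfl
  obtain ⟨S', c1, c2, c3, c4⟩ := locC F N eS cS b1
  refine ⟨S', c1, c2, c3, ?_⟩
  have e1 : Z - (blk true true 1 + S') = (Z - (blk true true 1 + S)) - (S' - S) := by abel
  rw [e1]
  exact ((norm_sub_le _ _).trans (add_le_add dx c4)).trans_lt (by linarith)

end Vale.Agent.P184.H11.LocB
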