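import Vale.Agent.P184.H13.Rows
import Vale.Agent.P184.H11.Count

/-!
# P184, row M: the Magnus embedding of `F / [R, R] R ^ n`
-/

namespace Vale.Agent.P184.H11

open Vale.Agent.P184.H13

/-- pull back of a cocycle -/
noncomputable def comap {G G' Q A : Type*} [Group G] [Group G'] [Group Q] [AddCommGroup A]
    (Z : Coc G Q A) (f : G' →* G) : Coc G' Q A where
  pi := Z.pi.comp f
  c g := Z.c (f g)
  fin g := Z.fin (f g)
  mul g h p := by
    rw [map_mul]
    exact Z.mul (f g) (f h) p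

variable {ι : Type*} (R : Subgroup (FreeGroup ι)) [R.Normal] (n : ℕ)

/-- the Magnus homomorphism on the free group -/
noncomputable def mag : FreeGroup ι →* Wr (ι →₀ ZMod n) (FreeGroup ι ⧸ R) :=
  FreeGroup.lift fun i =>
    ⟨Finsupp.single (QuotientGroup.mk' R (FreeGroup.of i)) (Finsupp.single i 1),
      QuotientGroup.mk' R (FreeGroup.of i)⟩

theorem mag_of (i : ι) : mag R n (FreeGroup.of i) =
    ⟨Finsupp.single (QuotientGroup.mk' R (FreeGroup.of i)) (Finsupp.single i 1),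
      QuotientGroup.mk' R (FreeGroup.of i)⟩ := FreeGroup.lift_apply_of

theorem mag_pt (w : FreeGroup ι) : (mag R n w).pt = QuotientGroup.mk' R w := by
  have h : (Wr.proj (A := ι →₀ ZMod n)).comp (mag R n) = QuotientGroup.mk' R := by
    ext i
    show (mag R n (FreeGroup.of i)).pt = _
    rw [mag_of]
  exact DFunLike.congr_fun h w

/-- elements of the base commute -/
theorem wr_comm {A Q : Type*} [AddCommGroup A] [Group Q] {a b : Wr A Q} (ha : a.pt = 1)
    (hb : b.pt = 1) : a * b = b * a := by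
  refine Wr.ext ?_ ?_
  · rw [Wr.mul_fn, Wr.mul_fn, ha, hb, Wr.tl_one, Wr.tl_one, add_comm]
  · rw [Wr.mul_pt, Wr.mul_pt, ha, hb]

theorem wr_pow {A Q : Type*} [AddCommGroup A] [Group Q] {a : Wr A Q} (ha : a.pt = 1) (m : ℕ) :
    (a ^ m).pt = 1 ∧ (a ^ m).fn = m • a.fn := by
  induction m with
  | zero => rw [pow_zero, zero_smul]; exact ⟨rfl, rfl⟩
  | succ m ih =>
    rw [pow_succ, Wr.mul_pt, Wr.mul_fn, ih.1, ih.2, ha, Wr.tl_one, one_mul, succ_nsmul]
    exact ⟨rfl, rfl⟩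

theorem nsmul_zmod {ι Q : Type*} (n : ℕ) (f : Q →₀ (ι →₀ ZMod n)) : n • f = 0 := by
  ext q i
  rw [Finsupp.smul_apply, Finsupp.smul_apply, nsmul_eq_mul, ZMod.natCast_self, zero_mul]
  rfl

theorem rel_le : rel R n ≤ (mag R n).ker := by
  refine Subgroup.normalClosure_le_normal ?_
  have hpt : ∀ a ∈ R, (mag R n a).pt = 1 := fun a ha => by
    rw [mag_pt]
    exact (QuotientGroup.eq_one_iff a).2 ha
  rintro x (⟨a, ha, b, hb, rfl⟩ | ⟨a, ha, rfl⟩)
  · show mag R n (a * b * a⁻¹ * b⁻¹) = 1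
    rw [map_mul, map_mul, map_mul, map_inv, map_inv, wr_comm (hpt a ha) (hpt b hb),
      mul_inv_cancel_right, mul_inv_cancel]
  · show mag R n (a ^ n) = 1
    rw [map_pow]
    obtain ⟨h1, h2⟩ := wr_pow (hpt a ha) n
    rw [nsmul_zmod] at h2
    exact Wr.ext h2 h1

/-- the Magnus homomorphism -/
noncomputable def magb : FreeGroup ι ⧸ rel R n →* Wr (ι →₀ ZMod n) (FreeGroup ι ⧸ R) :=
  QuotientGroup.lift (rel R n) (mag R n) (rel_le R n)

/-- the Magnus cocycle -/
noncomputable def Zm : Coc (FreeGroup ι ⧸ rel R n) (FreeGroup ι ⧸ R) (ι →₀ ZMod n) :=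
  comap Wr.coc (magb R n)

theorem Zm_pi (w : FreeGroup ι) : (Zm R n).pi (QuotientGroup.mk' (rel R n) w) =
    QuotientGroup.mk' R w := mag_pt R n w

/-- left multiplication on the quotient -/
noncomputable def actQ : FreeGroup ι →* Equiv.Perm (FreeGroup ι ⧸ R) :=
  (MulAction.toPermHom (FreeGroup ι ⧸ R) (FreeGroup ι ⧸ R)).comp (QuotientGroup.mk' R)

/-- left multiplication on the cosets -/
noncomputable def actC (C : Subgroup (FreeGroup ι ⧸ R)) :
    FreeGroup ι →* Equiv.Perm ((FreeGroup ι ⧸ R) ⧸ C) :=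
  (MulAction.toPermHom (FreeGroup ι ⧸ R) ((FreeGroup ι ⧸ R) ⧸ C)).comp (QuotientGroup.mk' R)

theorem actQ_apply (w : FreeGroup ι) (x : FreeGroup ι ⧸ R) :
    actQ R w x = QuotientGroup.mk' R w * x := rfl

theorem actC_apply (C : Subgroup (FreeGroup ι ⧸ R)) (w : FreeGroup ι) (x : FreeGroup ι ⧸ R) :
    actC R C w (x : (FreeGroup ι ⧸ R) ⧸ C) = ((QuotientGroup.mk' R w * x : FreeGroup ι ⧸ R) :
      (FreeGroup ι ⧸ R) ⧸ C) := rfl

theorem c_eq_K (w : FreeGroup ι) (p : FreeGroup ι ⧸ R) (i : ι) :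
    (Zm R n).c (QuotientGroup.mk' (rel R n) w) p i = ((K (actQ R) w p (1, i) : ℤ) : ZMod n) := by
  refine IsCoc.ext (a := actQ R)
    (ψ := fun w p => (Zm R n).c (QuotientGroup.mk' (rel R n) w) p i)
    (ψ' := fun w p => ((K (actQ R) w p (1, i) : ℤ) : ZMod n)) ?_ ?_ ?_ w p
  · intro g h x
    show (Zm R n).c (QuotientGroup.mk' (rel R n) (g * h)) x i = _
    rw [map_mul, (Zm R n).mul, Finsupp.add_apply, Zm_pi]
    rfl
  · intro g h x
    show ((K (actQ R) (g * h) x (1, i) : ℤ) : ZMod n) = _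
    rw [K_coc, Finsupp.add_apply, Int.cast_add]
  · intro j x
    show (mag R n (FreeGroup.of j)).fn ((mag R n (FreeGroup.of j)).pt * x) i =
      ((K (actQ R) (FreeGroup.of j) x (1, i) : ℤ) : ZMod n)
    rw [K_of, mag_of]
    show Finsupp.single (QuotientGroup.mk' R (FreeGroup.of j)) (Finsupp.single j (1 : ZMod n))
      (QuotientGroup.mk' R (FreeGroup.of j) * x) i = _
    classical
    rw [Finsupp.single_apply, Finsupp.single_apply]
    by_cases hx : x = 1
    · subst hx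
      rw [if_pos (mul_one _).symm, Finsupp.single_apply]
      by_cases hj : j = i
      · rw [if_pos hj, if_pos (by rw [hj]), Int.cast_one]
      · rw [if_neg hj, if_neg (fun h => hj (Prod.ext_iff.1 h).2), Int.cast_zero]
    · rw [if_neg (fun h => hx (left_eq_mul.1 h)), if_neg (fun h => hx (Prod.ext_iff.1 h).1),
        Int.cast_zero]
      rfl

theorem D_eq_K (w : FreeGroup ι) (C : Subgroup (FreeGroup ι ⧸ R))
    (hC : C = Subgroup.zpowers (QuotientGroup.mk' R w)) (x : FreeGroup ι ⧸ R) (i : ι) :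
    (Zm R n).D (QuotientGroup.mk' (rel R n) w) x⁻¹ i =
      ((K (actC R C) w ((1 : FreeGroup ι ⧸ R) : (FreeGroup ι ⧸ R) ⧸ C)
        ((x : (FreeGroup ι ⧸ R) ⧸ C), i) : ℤ) : ZMod n) := by
  subst hC
  set C := Subgroup.zpowers (QuotientGroup.mk' R w) with hC
  have hK : ∀ y : FreeGroup ι ⧸ R, K (actQ R) w y (1, i) = K (actQ R) w 1 (y⁻¹, i) := by
    intro y
    have h := K_map (a := actQ R) (b := actQ R) (fun z => z * y)
      (fun v z => by rw [actQ_apply, actQ_apply, mul_assoc]) w 1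
    rw [one_mul] at h
    rw [h, show ((1 : FreeGroup ι ⧸ R), i) = Prod.map (fun z => z * y) id (y⁻¹, i) from
      Prod.ext (inv_mul_cancel y).symm rfl]
    refine Finsupp.mapDomain_apply ?_ _ _
    exact Function.Injective.prodMap (mul_left_injective y) Function.injective_id
  rw [K_map (a := actQ R) (b := actC R C) QuotientGroup.mk (fun v z => rfl) w 1, fibre]
  have hD : (Zm R n).D (QuotientGroup.mk' (rel R n) w) x⁻¹ =
      ∑ᶠ u : C, (Zm R n).c (QuotientGroup.mk' (rel R n) w) ((u : FreeGroup ι ⧸ R) * x⁻¹) := by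
    have aux : ∀ D D' : Subgroup (FreeGroup ι ⧸ R), D = D' →
        (∑ᶠ u : D, (Zm R n).c (QuotientGroup.mk' (rel R n) w) ((u : FreeGroup ι ⧸ R) * x⁻¹)) =
        ∑ᶠ u : D', (Zm R n).c (QuotientGroup.mk' (rel R n) w)
          ((u : FreeGroup ι ⧸ R) * x⁻¹) := by
      rintro D _ rfl
      rfl
    exact aux _ _ (by rw [Zm_pi])
  rw [hD]
  have hfin : (Function.support fun u : C =>
      (Zm R n).c (QuotientGroup.mk' (rel R n) w) ((u : FreeGroup ι ⧸ R) * x⁻¹)).Finite := by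
    have hinj : Function.Injective fun u : C => (u : FreeGroup ι ⧸ R) * x⁻¹ :=
      (mul_left_injective _).comp Subtype.val_injective
    exact ((Zm R n).fin (QuotientGroup.mk' (rel R n) w)).preimage hinj.injOn
  have h1 := AddMonoidHom.map_finsum (Finsupp.applyAddHom (M := ZMod n) i) hfin
  refine h1.trans ?_
  rw [← finsum_comp_equiv (Equiv.inv C)]
  have h2 := AddMonoidHom.map_finsum (Int.castAddHom (ZMod n))
    (fibre_finite C (K (actQ R) w 1) x i)
  refine Eq.trans ?_ h2.symm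
  refine finsum_congr fun u => ?_
  show (Zm R n).c (QuotientGroup.mk' (rel R n) w) (((u⁻¹ : C) : FreeGroup ι ⧸ R) * x⁻¹) i = _
  rw [c_eq_K, hK]
  rw [mul_inv_rev, inv_inv, InvMemClass.coe_inv, inv_inv]
  rfl

/-- if all charges of `t` vanish, then the image of `t` in every abelian quotient of the preimage
of the cyclic group generated by `pi t` is an `n`-th power. -/
theorem pow_of_D (w : FreeGroup ι) (C : Subgroup (FreeGroup ι ⧸ R))
    (hC : C = Subgroup.zpowers (QuotientGroup.mk' R w))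
    (hD : ∀ x, (Zm R n).D (QuotientGroup.mk' (rel R n) w) x = 0) {B : Type*} [CommGroup B]
    (θ : C.comap (Zm R n).pi →* B) (hw : QuotientGroup.mk' (rel R n) w ∈ C.comap (Zm R n).pi) :
    ∃ b : B, θ ⟨QuotientGroup.mk' (rel R n) w, hw⟩ = b ^ n := by
  have hdiv : ∀ v, (n : ℤ) ∣ K (actC R C) w ((1 : FreeGroup ι ⧸ R) : (FreeGroup ι ⧸ R) ⧸ C) v := by
    rintro ⟨y, i⟩
    obtain ⟨x, rfl⟩ := QuotientGroup.mk_surjective y
    rw [← CharP.intCast_eq_zero_iff (ZMod n) n, ← D_eq_K R n w C hC, hD]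
    rfl
  have hs : ∀ y : (FreeGroup ι ⧸ R) ⧸ C, ∃ g : FreeGroup ι ⧸ rel R n,
      (((Zm R n).pi g : FreeGroup ι ⧸ R) : (FreeGroup ι ⧸ R) ⧸ C) = y := by
    intro y
    obtain ⟨x, rfl⟩ := QuotientGroup.mk_surjective y
    obtain ⟨v, rfl⟩ := QuotientGroup.mk'_surjective R x
    exact ⟨QuotientGroup.mk' (rel R n) v, by rw [Zm_pi]⟩
  choose s hs using hs
  have hmem : ∀ (g : FreeGroup ι) (y : (FreeGroup ι ⧸ R) ⧸ C),
      (s (actC R C g y))⁻¹ * QuotientGroup.mk' (rel R n) g * s y ∈ C.comap (Zm R n).pi := by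
    intro g y
    rw [Subgroup.mem_comap, map_mul, map_mul, map_inv, Zm_pi, mul_assoc]
    refine QuotientGroup.eq.1 ?_
    rw [hs]
    conv_lhs => rw [← hs y]
    exact actC_apply R C g _
  let ψ : FreeGroup ι → (FreeGroup ι ⧸ R) ⧸ C → Additive B := fun g y =>
    Additive.ofMul (θ ⟨_, hmem g y⟩)
  have hψ : IsCoc (actC R C) ψ := by
    intro g h y
    show Additive.ofMul (θ ⟨_, hmem (g * h) y⟩) =
      Additive.ofMul (θ ⟨_, hmem g (actC R C h y)⟩) + Additive.ofMul (θ ⟨_, hmem h y⟩)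
    rw [← ofMul_mul, ← map_mul]
    refine congrArg _ (congrArg θ (Subtype.ext ?_))
    show (s (actC R C (g * h) y))⁻¹ * QuotientGroup.mk' (rel R n) (g * h) * s y =
      (s (actC R C g (actC R C h y)))⁻¹ * QuotientGroup.mk' (rel R n) g * s (actC R C h y) *
      ((s (actC R C h y))⁻¹ * QuotientGroup.mk' (rel R n) h * s y)
    rw [map_mul, map_mul, Equiv.Perm.mul_apply]
    group
  obtain ⟨b, hb⟩ := dvd_coc hψ w ((1 : FreeGroup ι ⧸ R) : (FreeGroup ι ⧸ R) ⧸ C) n hdiv
  refine ⟨b.toMul, ?_⟩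
  have hb' : θ ⟨_, hmem w ((1 : FreeGroup ι ⧸ R) : (FreeGroup ι ⧸ R) ⧸ C)⟩ = b.toMul ^ n :=
    congrArg Additive.toMul hb
  rw [← hb']
  have h1 : s ((1 : FreeGroup ι ⧸ R) : (FreeGroup ι ⧸ R) ⧸ C) ∈ C.comap (Zm R n).pi := by
    rw [Subgroup.mem_comap]
    have := QuotientGroup.eq.1 (hs ((1 : FreeGroup ι ⧸ R) : (FreeGroup ι ⧸ R) ⧸ C)).symm
    rwa [inv_one, one_mul] at this
  have hfix : actC R C w ((1 : FreeGroup ι ⧸ R) : (FreeGroup ι ⧸ R) ⧸ C) =
      ((1 : FreeGroup ι ⧸ R) : (FreeGroup ι ⧸ R) ⧸ C) := by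
    rw [actC_apply, mul_one]
    refine (QuotientGroup.eq.2 ?_).symm
    rw [inv_one, one_mul, hC]
    exact Subgroup.mem_zpowers _
  have h2 : (⟨_, hmem w ((1 : FreeGroup ι ⧸ R) : (FreeGroup ι ⧸ R) ⧸ C)⟩ :
      C.comap (Zm R n).pi) = ⟨_, h1⟩⁻¹ * ⟨QuotientGroup.mk' (rel R n) w, hw⟩ * ⟨_, h1⟩ := by
    refine Subtype.ext ?_
    show (s (actC R C w ((1 : FreeGroup ι ⧸ R) : (FreeGroup ι ⧸ R) ⧸ C)))⁻¹ *
      QuotientGroup.mk' (rel R n) w * s ((1 : FreeGroup ι ⧸ R) : (FreeGroup ι ⧸ R) ⧸ C) = _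
    rw [hfix]
    rfl
  rw [h2, map_mul, map_mul, map_inv, mul_comm (θ _)⁻¹, mul_assoc, inv_mul_cancel, mul_one]

/-- Row M. -/
theorem rowMagnus.{u} : RowMagnus.{u} := by
  intro ι R _ n hn
  have hker : ∀ a, (Zm R n).pi a = 1 → ∃ v ∈ R, QuotientGroup.mk' (rel R n) v = a := by
    intro a ha
    obtain ⟨v, rfl⟩ := QuotientGroup.mk'_surjective (rel R n) a
    rw [Zm_pi] at ha
    exact ⟨v, (QuotientGroup.eq_one_iff v).1 ha, rfl⟩
  have hcomm : ∀ a b, (Zm R n).pi a = 1 → (Zm R n).pi b = 1 → Commute a b := by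
    intro a b ha hb
    obtain ⟨v, hv, rfl⟩ := hker a ha
    obtain ⟨w, hw, rfl⟩ := hker b hb
    have h : QuotientGroup.mk' (rel R n) (v * w * v⁻¹ * w⁻¹) = 1 :=
      (QuotientGroup.eq_one_iff _).2 (Subgroup.subset_normalClosure (Or.inl ⟨v, hv, w, hw, rfl⟩))
    rw [map_mul, map_mul, map_mul, map_inv, map_inv] at h
    show _ * _ = _ * _
    rw [mul_inv_eq_one, mul_inv_eq_iff_eq_mul] at h
    exact h
  have hpow : ∀ a, (Zm R n).pi a = 1 → a ^ n = 1 := by
    intro a ha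
    obtain ⟨v, hv, rfl⟩ := hker a ha
    rw [← map_pow]
    exact (QuotientGroup.eq_one_iff _).2 (Subgroup.subset_normalClosure (Or.inr ⟨v, hv, rfl⟩))
  refine ⟨Zm R n, ?_, hcomm, fun _ => hpow, ?_⟩
  · intro q
    obtain ⟨w, rfl⟩ := QuotientGroup.mk'_surjective R q
    exact ⟨QuotientGroup.mk' (rel R n) w, Zm_pi R n w⟩
  · intro t ht htor
    by_contra hcon
    push Not at hcon
    obtain ⟨w, rfl⟩ := QuotientGroup.mk'_surjective (rel R n) t
    rw [Zm_pi] at htor
    have key := fun {B : Type u} [CommGroup B] => pow_of_D (B := B) R n w _ rfl hcon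
    have hw : QuotientGroup.mk' (rel R n) w ∈
        (Subgroup.zpowers (QuotientGroup.mk' R w)).comap (Zm R n).pi := by
      rw [Subgroup.mem_comap, Zm_pi]
      exact Subgroup.mem_zpowers _
    by_cases h1 : QuotientGroup.mk' R w = 1
    · -- the kernel
      apply ht
      have hkerC : ∀ g : (Subgroup.zpowers (QuotientGroup.mk' R w)).comap (Zm R n).pi,
          (Zm R n).pi g = 1 := by
        intro g
        obtain ⟨k, hk⟩ := Subgroup.mem_zpowers_iff.1 g.2
        rw [← hk, h1, one_zpow]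
      let _ : CommGroup ((Subgroup.zpowers (QuotientGroup.mk' R w)).comap (Zm R n).pi) :=
        { (inferInstance : Group ((Subgroup.zpowers (QuotientGroup.mk' R w)).comap
            (Zm R n).pi)) with
          mul_comm := fun a b => Subtype.ext (hcomm a b (hkerC a) (hkerC b)) }
      obtain ⟨b, hb⟩ := key (MonoidHom.id _) hw
      have hb2 : QuotientGroup.mk' (rel R n) w = (b : FreeGroup ι ⧸ rel R n) ^ n :=
        congrArg Subtype.val hb
      rw [hb2]
      exact hpow _ (hkerC b)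
    · -- the image
      let _ : CommGroup (Subgroup.zpowers (QuotientGroup.mk' R w)) :=
        { (Subgroup.zpowers (QuotientGroup.mk' R w)).toGroup with
          mul_comm := fun a b => by
            obtain ⟨k, hk⟩ := Subgroup.mem_zpowers_iff.1 a.2
            obtain ⟨l, hl⟩ := Subgroup.mem_zpowers_iff.1 b.2
            refine Subtype.ext ?_
            show (a : FreeGroup ι ⧸ R) * b = b * a
            rw [← hk, ← hl, zpow_mul_comm] }
      obtain ⟨b, hb⟩ := key ((Zm R n).pi.subgroupComap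
        (Subgroup.zpowers (QuotientGroup.mk' R w))) hw
      have hb2 : QuotientGroup.mk' R w = (b : FreeGroup ι ⧸ R) ^ n := by
        have := congrArg Subtype.val hb
        exact (Zm_pi R n w).symm.trans this
      obtain ⟨k, hk⟩ := Subgroup.mem_zpowers_iff.1 b.2
      rw [← hk, ← zpow_natCast, ← zpow_mul] at hb2
      have hz : (QuotientGroup.mk' R w) ^ (k * n - 1) = 1 := by
        rw [zpow_sub, zpow_one, ← hb2, mul_inv_cancel]
      by_cases hfo : IsOfFinOrder (QuotientGroup.mk' R w)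
      · refine htor h1 hfo ?_
        have hdvd := orderOf_dvd_iff_zpow_eq_one.2 hz
        rw [← Nat.isCoprime_iff_coprime]
        obtain ⟨c, hc⟩ := hdvd
        refine ⟨-c, k, ?_⟩
        linarith
      · have h0 : k * n - 1 = 0 := by
          by_contra hne
          apply hfo
          exact isOfFinOrder_iff_zpow_eq_one.2 ⟨_, hne, hz⟩
        have h2 : k * (n : ℤ) = 1 := by linarith
        have h3 : (n : ℤ) ∣ 1 := ⟨k, by linarith⟩
        have h4 : n ∣ 1 := by exact_mod_cast h3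
        exact hn (Nat.dvd_one.1 h4)

end Vale.Agent.P184.H11
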