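import Vale.Agent.P184.H444.GitT
import Vale.Agent.P184.Bdl.B4

/-!
# P184: groups with an abelian subgroup of finite index are nice
-/

namespace Vale.Agent.P184.H11.NiceVa

open Vale.Agent.P184

universe u

theorem nice_of_isAmenable {L : Type u} [Group L] (h : IsAmenable L) : W.Nice L := by
  have h1 : V.CoAmenable (⊤ : Subgroup L) ((⊥ : Subgroup (⊤ : Subgroup L)).map
      (⊤ : Subgroup L).subtype) :=
    V.amenable_coAmenable ⊥ (IsAmenable.of_surjective
      ((QuotientGroup.mk' (⊥ : Subgroup (⊤ : Subgroup L))).comp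
        (Subgroup.topEquiv (G := L)).symm.toMonoidHom)
      ((QuotientGroup.mk'_surjective _).comp (Subgroup.topEquiv (G := L)).symm.surjective) h)
  rw [Subgroup.map_bot] at h1
  exact W.nice_of_V (V.nice_of_amenable h1)

theorem isAmenable_va {L : Type u} [Group L] (M : Subgroup L) [M.Normal] [M.FiniteIndex]
    (hM : ∀ x ∈ M, ∀ y ∈ M, x * y = y * x) : IsAmenable L := by
  have h1 : IsAmenable M := H444.Fol.amen_of_folner (H444.Fol.isAmenable_of_comm M
    fun a b => Subtype.ext (hM a a.2 b b.2))
  refine isAmenable_of_ker (QuotientGroup.mk' M) ?_ isAmenable_of_finite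
  rw [QuotientGroup.ker_mk']
  exact h1

/-- Groups with a normal abelian subgroup of finite index are nice. -/
theorem nice_va {L : Type u} [Group L] (M : Subgroup L) [M.Normal] [M.FiniteIndex]
    (hM : ∀ x ∈ M, ∀ y ∈ M, x * y = y * x) : W.Nice L :=
  nice_of_isAmenable (isAmenable_va M hM)

end Vale.Agent.P184.H11.NiceVa
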