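import Vale.Agent.P184.H11.TreeRed

/-!
# P184: groups acting on trees with finite edge stabilizers, inversions allowed
-/

namespace Vale.Agent.P184.H11.TreeAny

open SimpleGraph Vale.Agent.P184 Vale.Agent.P184.H290 Vale.Agent.P184.H11.TreeRed

universe u v

theorem l1Bass_finite {G : Type*} [Group G] [Finite G] : L1Bass G := by
  classical
  have : Finite (ConjClasses G) := Finite.of_surjective _ ConjClasses.mk_surjective
  exact l1Bass_of_finite_torsion (fun x hx => absurd (isOfFinOrder_of_finite x) hx)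
    (Set.toFinite _)

section

variable {V : Type*} (T : SimpleGraph V)

/-- the barycentric subdivision -/
def sub : SimpleGraph (V ⊕ T.edgeSet) where
  Adj x y := (∃ v e, x = Sum.inl v ∧ y = Sum.inr e ∧ v ∈ (e : Sym2 V)) ∨
    ∃ v e, y = Sum.inl v ∧ x = Sum.inr e ∧ v ∈ (e : Sym2 V)
  symm := ⟨fun _ _ h => h.symm⟩
  loopless := ⟨by
    rintro x (⟨v, e, rfl, h, _⟩ | ⟨v, e, rfl, h, _⟩)
    · exact Sum.inl_ne_inr h
    · exact Sum.inl_ne_inr h⟩

variable {T}

theorem sub_adj {v : V} {e : T.edgeSet} (h : v ∈ (e : Sym2 V)) :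
    (sub T).Adj (Sum.inl v) (Sum.inr e) := Or.inl ⟨v, e, rfl, rfl, h⟩

theorem reach_inl {v w : V} (p : T.Walk v w) :
    (sub T).Reachable (Sum.inl v) (Sum.inl w) := by
  induction p with
  | nil => exact Reachable.refl _
  | cons h q ih =>
    rename_i a c b
    have h1 : (sub T).Adj (Sum.inl a) (Sum.inr ⟨s(a, c), h⟩) := sub_adj (Sym2.mem_mk_left _ _)
    have h2 : (sub T).Adj (Sum.inl c) (Sum.inr ⟨s(a, c), h⟩) := sub_adj (Sym2.mem_mk_right _ _)
    exact (h1.reachable.trans h2.symm.reachable).trans ih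

theorem sub_connected (hT : T.Connected) : (sub T).Connected := by
  obtain ⟨v₀⟩ := hT.nonempty
  have key : ∀ x : V ⊕ T.edgeSet, (sub T).Reachable (Sum.inl v₀) x := by
    rintro (v | e)
    · obtain ⟨p⟩ := hT v₀ v
      exact reach_inl p
    · obtain ⟨e, he⟩ := e
      induction e using Sym2.ind with
      | _ a b =>
        obtain ⟨p⟩ := hT v₀ a
        exact (reach_inl p).trans (sub_adj (e := ⟨s(a, b), he⟩) (Sym2.mem_mk_left _ _)).reachable
  exact (connected_iff _).2 ⟨fun x y => (key x).symm.trans (key y), ⟨Sum.inl v₀⟩⟩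

theorem sub_acyclic (hT : T.IsAcyclic) : (sub T).IsAcyclic := by
  rw [isAcyclic_iff_forall_adj_isBridge]
  have key : ∀ v (e : T.edgeSet), v ∈ (e : Sym2 V) →
      ¬ ((sub T).deleteEdges {s(Sum.inl v, Sum.inr e)}).Reachable (Sum.inl v) (Sum.inr e) := by
    intro v e hv hr
    obtain ⟨w, hw⟩ := Sym2.mem_iff_exists.1 hv
    have hvw : T.Adj v w := by
      have h1 := e.2
      rwa [hw, mem_edgeSet] at h1
    have hb := isBridge_iff.1 (isAcyclic_iff_forall_adj_isBridge.1 hT hvw)
    let side : V ⊕ T.edgeSet → Prop :=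
      Sum.elim (fun x => (T.deleteEdges {s(v, w)}).Reachable w x)
        (fun e' => e' = e ∨ ∃ x ∈ (e' : Sym2 V), (T.deleteEdges {s(v, w)}).Reachable w x)
    have hcore : ∀ x (e' : T.edgeSet), x ∈ (e' : Sym2 V) →
        s((Sum.inl x : V ⊕ T.edgeSet), Sum.inr e') ≠ s(Sum.inl v, Sum.inr e) →
        (side (Sum.inl x) ↔ side (Sum.inr e')) := by
      intro x e' hx hne
      constructor
      · intro h
        exact Or.inr ⟨x, hx, h⟩
      · intro h
        change (T.deleteEdges {s(v, w)}).Reachable w x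
        by_cases he : e' = e
        · subst he
          rw [hw, Sym2.mem_iff] at hx
          rcases hx with rfl | rfl
          · exact absurd rfl hne
          · exact Reachable.refl _
        · obtain ⟨y, hy, hyr⟩ := h.resolve_left he
          by_cases hxy : x = y
          · rwa [hxy]
          · have h1 : (e' : Sym2 V) = s(x, y) := (Sym2.mem_and_mem_iff hxy).1 ⟨hx, hy⟩
            have h2 : T.Adj x y := by
              have h3 := e'.2
              rwa [h1, mem_edgeSet] at h3
            have h3 : (T.deleteEdges {s(v, w)}).Adj x y := by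
              rw [deleteEdges_adj]
              refine ⟨h2, fun h4 => he (Subtype.ext ?_)⟩
              rw [h1, hw]
              exact h4
            exact hyr.trans h3.symm.reachable
    have hside : ∀ a b, ((sub T).deleteEdges {s(Sum.inl v, Sum.inr e)}).Adj a b →
        (side a ↔ side b) := by
      intro a b hab
      rw [deleteEdges_adj] at hab
      obtain ⟨h1 | h1, h2⟩ := hab
      · obtain ⟨x, e', rfl, rfl, hx⟩ := h1
        exact hcore x e' hx h2
      · obtain ⟨x, e', rfl, rfl, hx⟩ := h1
        refine (hcore x e' hx fun h3 => h2 ?_).symm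
        rw [Set.mem_singleton_iff, ← h3]
        exact Sym2.eq_swap
    have hwalk : ∀ {a b} (p : ((sub T).deleteEdges {s(Sum.inl v, Sum.inr e)}).Walk a b),
        (side a ↔ side b) := by
      intro a b p
      induction p with
      | nil => exact Iff.rfl
      | cons h q ih => exact (hside _ _ h).trans ih
    obtain ⟨p⟩ := hr
    have h1 : side (Sum.inl v) := (hwalk p).2 (Or.inl rfl)
    exact hb (Reachable.symm h1)
  rintro x y (⟨v, e, rfl, rfl, hv⟩ | ⟨v, e, rfl, rfl, hv⟩)
  · exact isBridge_iff.2 (key v e hv)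
  · rw [Sym2.eq_swap]
    exact isBridge_iff.2 (key v e hv)

end

section

variable {G : Type u} {V : Type v} [Group G] [MulAction G V] {T : SimpleGraph V}

/-- the image of an edge -/
def smE (hadj : ∀ (g : G) u v, T.Adj u v → T.Adj (g • u) (g • v)) (g : G) (e : T.edgeSet) :
    T.edgeSet :=
  ⟨Sym2.map (fun x => g • x) e.1, by
    obtain ⟨e, he⟩ := e
    induction e using Sym2.ind with
    | _ a b => exact hadj g a b he⟩

/-- the action on the subdivision -/
@[reducible] def subAct (hadj : ∀ (g : G) u v, T.Adj u v → T.Adj (g • u) (g • v)) :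
    MulAction G (V ⊕ T.edgeSet) where
  smul g x := Sum.map (fun v => g • v) (smE hadj g) x
  one_smul x := by
    rcases x with v | ⟨e, he⟩
    · exact congrArg Sum.inl (one_smul G v)
    · refine congrArg Sum.inr (Subtype.ext ?_)
      induction e using Sym2.ind with
      | _ a b =>
        change s((1 : G) • a, (1 : G) • b) = s(a, b)
        rw [one_smul, one_smul]
  mul_smul g h x := by
    rcases x with v | ⟨e, he⟩
    · exact congrArg Sum.inl (mul_smul g h v)
    · refine congrArg Sum.inr (Subtype.ext ?_)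
      induction e using Sym2.ind with
      | _ a b =>
        change s((g * h) • a, (g * h) • b) = s(g • h • a, g • h • b)
        rw [mul_smul, mul_smul]

theorem edge_grp_finite (hfin : ∀ u v, T.Adj u v →
      Finite (MulAction.stabilizer G u ⊓ MulAction.stabilizer G v : Subgroup G)) {a b : V}
    (hab : T.Adj a b) : {g : G | s(g • a, g • b) = s(a, b)}.Finite := by
  have h1 : {g : G | g • a = a ∧ g • b = b}.Finite := by
    have h2 := hfin a b hab
    exact Set.toFinite ((MulAction.stabilizer G a ⊓ MulAction.stabilizer G b : Subgroup G) :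
      Set G)
  have h2 : {g : G | g • a = b ∧ g • b = a}.Finite := by
    by_cases hne : ∃ g : G, g • a = b ∧ g • b = a
    · obtain ⟨g₀, h3, h4⟩ := hne
      refine Set.Finite.of_injOn (f := fun g => g₀⁻¹ * g) (t := {g : G | g • a = a ∧ g • b = b})
        ?_ ?_ h1
      · rintro g ⟨h5, h6⟩
        refine ⟨?_, ?_⟩
        · rw [mul_smul, h5, ← h3, inv_smul_smul]
        · rw [mul_smul, h6, ← h4, inv_smul_smul]
      · intro x _ y _ hxy
        exact mul_left_cancel hxy
    · refine Set.finite_empty.subset fun g hg => hne ⟨g, hg⟩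
  refine (h1.union h2).subset ?_
  intro g hg
  rcases Sym2.eq_iff.1 hg with h3 | h3
  · exact Or.inl h3
  · exact Or.inr h3

end

/-- **Groups acting on trees with finite edge stabilizers**, any number of orbits, inversions
allowed. -/
theorem treeAny {G : Type u} {V : Type v} [Group G] [MulAction G V] (T : SimpleGraph V)
    (hT : T.IsTree) (hadj : ∀ (g : G) u v, T.Adj u v → T.Adj (g • u) (g • v))
    (hfin : ∀ u v, T.Adj u v →
      Finite (MulAction.stabilizer G u ⊓ MulAction.stabilizer G v : Subgroup G))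
    (hQ : RowQ2.{u, u, u}) (h : ∀ v : V, L1Bass (MulAction.stabilizer G v)) : L1Bass G := by
  letI : MulAction G (V ⊕ T.edgeSet) := subAct hadj
  refine treeAll (V := V ⊕ T.edgeSet) (sub T)
    ⟨sub_connected hT.connected, sub_acyclic hT.isAcyclic⟩ ?_ ?_ ?_ hQ ?_
  · rintro g x y (⟨v, ⟨e, he⟩, rfl, rfl, hv⟩ | ⟨v, ⟨e, he⟩, rfl, rfl, hv⟩)
    · exact Or.inl ⟨g • v, smE hadj g ⟨e, he⟩, rfl, rfl, Sym2.mem_map.2 ⟨v, hv, rfl⟩⟩
    · exact Or.inr ⟨g • v, smE hadj g ⟨e, he⟩, rfl, rfl, Sym2.mem_map.2 ⟨v, hv, rfl⟩⟩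
  · rintro g (v | e) (⟨v', e', h1, h2, -⟩ | ⟨v', e', h1, h2, -⟩)
    · exact absurd h2 Sum.inl_ne_inr
    · exact absurd h2 Sum.inl_ne_inr
    · exact absurd h1 Sum.inr_ne_inl
    · exact absurd h1 Sum.inr_ne_inl
  · have key : ∀ (v : V) (e : T.edgeSet), v ∈ (e : Sym2 V) →
        Finite (MulAction.stabilizer G (Sum.inl v : V ⊕ T.edgeSet) ⊓
          MulAction.stabilizer G (Sum.inr e : V ⊕ T.edgeSet) : Subgroup G) := by
      intro v e hv
      obtain ⟨w, hw⟩ := Sym2.mem_iff_exists.1 hv
      have hvw : T.Adj v w := by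
        have h1 := e.2
        rwa [hw, mem_edgeSet] at h1
      refine ((edge_grp_finite hfin hvw).subset ?_).to_subtype
      rintro g ⟨-, hg⟩
      have h1 : (g • (Sum.inr e : V ⊕ T.edgeSet)) = Sum.inr e := hg
      have h2 : Sym2.map (fun x => g • x) e.1 = e.1 := congrArg Subtype.val (Sum.inr.inj h1)
      rw [hw] at h2
      exact h2
    rintro x y (⟨v, e, rfl, rfl, hv⟩ | ⟨v, e, rfl, rfl, hv⟩)
    · exact key v e hv
    · rw [inf_comm]
      exact key v e hv
  · rintro (v | e)
    · refine l1Bass_equiv ?_ (h v)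
      exact
        { toFun := fun a => ⟨a, Sum.inl.inj a.2⟩
          invFun := fun a => ⟨a, congrArg Sum.inl a.2⟩
          left_inv := fun a => rfl
          right_inv := fun a => rfl
          map_mul' := fun a b => rfl }
    · obtain ⟨e, he⟩ := e
      induction e using Sym2.ind with
      | _ a b =>
        have hfin2 : Finite (MulAction.stabilizer G (Sum.inr ⟨s(a, b), he⟩ : V ⊕ T.edgeSet)) := by
          refine ((edge_grp_finite hfin he).subset ?_).to_subtype
          intro g hg
          have h1 : (g • (Sum.inr ⟨s(a, b), he⟩ : V ⊕ T.edgeSet)) = Sum.inr ⟨s(a, b), he⟩ := hg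
          exact congrArg Subtype.val (Sum.inr.inj h1)
        exact l1Bass_finite

end Vale.Agent.P184.H11.TreeAny
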