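import Mathlib

/-!
# Virtual retractions of finitely generated abelian groups
-/

namespace Vale.Agent.P184.H11.VrAb

/-- Every subgroup `C` of a finitely generated abelian group `K` is a virtual retract: there is
`D : K → K` which is the identity on `C`, such that `D x ∈ C` for `x` in a subgroup of finite
index. -/
theorem exists_retr {K : Type*} [AddCommGroup K] [Module.Finite ℤ K] (C : Submodule ℤ K) :
    ∃ D : K →ₗ[ℤ] K, (∀ c ∈ C, D c = c) ∧ Finite (LinearMap.range (C.mkQ ∘ₗ D)) := by
  let M := K ⧸ C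
  let T : Submodule ℤ M := Submodule.torsion ℤ M
  let q : K →ₗ[ℤ] M ⧸ T := T.mkQ ∘ₗ C.mkQ
  have hq : Function.Surjective q := T.mkQ_surjective.comp C.mkQ_surjective
  have : Module.Free ℤ (M ⧸ T) := inferInstance
  obtain ⟨s, hs⟩ := Module.projective_lifting_property q LinearMap.id hq
  let D : K →ₗ[ℤ] K := LinearMap.id - s ∘ₗ q
  have hD : ∀ x, D x = x - s (q x) := fun x => rfl
  refine ⟨D, ?_, ?_⟩
  · intro c hc
    have h1 : q c = 0 := by
      change T.mkQ (C.mkQ c) = 0
      rw [show C.mkQ c = 0 from (Submodule.Quotient.mk_eq_zero C).2 hc, map_zero]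
    rw [hD, h1, map_zero, sub_zero]
  · have : Finite T := Module.finite_of_fg_torsion T (Submodule.torsion_isTorsion)
    have h2 : ∀ y : LinearMap.range (C.mkQ ∘ₗ D), y.1 ∈ T := by
      rintro ⟨_, x, rfl⟩
      have h2 : T.mkQ (C.mkQ (D x)) = 0 := by
        change q (D x) = 0
        have h3 : q (s (q x)) = q x := LinearMap.congr_fun hs (q x)
        rw [hD, map_sub, h3, sub_self]
      exact (Submodule.Quotient.mk_eq_zero T).1 h2
    refine Finite.of_injective
      (fun y : LinearMap.range (C.mkQ ∘ₗ D) => (⟨y.1, h2 y⟩ : T)) ?_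
    intro y y' h
    exact Subtype.ext (congrArg (fun z : T => (z : M)) h)

end Vale.Agent.P184.H11.VrAb
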