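import Vale.Agent.P184.H11.AmTree
import Vale.Agent.P184.H11.VrSys

/-!
# P184: amalgams over virtual retracts
-/

namespace Vale.Agent.P184.H11.VrAm

open Vale.Agent.P184 Monoid Monoid.PushoutI

universe u v w

/-- The tree form: one edge as a strict fundamental domain, and a finite set with a cocycle. -/
def VR1.{u', v', w'} : Prop :=
  ∀ {G : Type u'} {V : Type v'} [Group G] [MulAction G V] (T : SimpleGraph V), T.IsTree →
    (∀ (g : G) u v, T.Adj u v → T.Adj (g • u) (g • v)) → ∀ (a b : V), T.Adj a b →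
    (∀ v, (∃ g : G, g • a = v) ∨ ∃ g : G, g • b = v) → (∀ g : G, g • a ≠ b) →
    (∀ u v, T.Adj u v → (∃ g : G, g • a = u ∧ g • b = v) ∨ ∃ g : G, g • a = v ∧ g • b = u) →
    ∀ (F : Type w') [Finite F] [Nonempty F] [MulAction (MulAction.stabilizer G a) F]
      (β : MulAction.stabilizer G a → F → G),
      (∀ l u, β l u ∈ MulAction.stabilizer G a ⊓ MulAction.stabilizer G b) →
      (∀ l m u, β (l * m) u = β l (m • u) * β m u) →
      (∀ l : MulAction.stabilizer G a, (l : G) • b = b → ∀ u, l • u = u ∧ β l u = l) →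
      L1Bass (MulAction.stabilizer G a) → L1Bass (MulAction.stabilizer G b) → L1Bass G

variable {G : Bool → Type v} {H : Type u} [∀ i, Group (G i)] [Group H] {φ : ∀ i, H →* G i}

/-- **Amalgams**, one side with a finite set and a cocycle. -/
theorem vr_am (hV : VR1.{max u v, max u v, w}) (hφ : ∀ i, Function.Injective (φ i))
    (F : Type w) [Finite F] [Nonempty F] [MulAction (G true) F] (β : G true → F → H)
    (hmul : ∀ l m u, β (l * m) u = β l (m • u) * β m u)
    (hA : ∀ c u, φ true c • u = u ∧ β (φ true c) u = c)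
    (h1 : L1Bass (G true)) (h2 : L1Bass (G false)) : L1Bass (PushoutI φ) := by
  let e := AmTree.stabEquiv φ hφ true
  letI : MulAction (MulAction.stabilizer (PushoutI φ) (AmTree.mk φ true 1)) F :=
    MulAction.compHom F e.symm.toMonoidHom
  have hact : ∀ (l : MulAction.stabilizer (PushoutI φ) (AmTree.mk φ true 1)) (u : F),
      l • u = e.symm l • u := fun l u => rfl
  refine hV (AmTree.Tr φ) (AmTree.isTree φ hφ) (AmTree.hadj φ) (AmTree.mk φ true 1)
    (AmTree.mk φ false 1) (AmTree.adj_mk φ true 1) ?_ (AmTree.ne φ) ?_ F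
    (fun l u => base φ (β (e.symm l) u)) ?_ ?_ ?_ (TreeRed.l1Bass_equiv e.symm h1)
    (TreeRed.l1Bass_equiv (AmTree.stabEquiv φ hφ false).symm h2)
  · intro v
    rcases AmTree.vert φ v with ⟨g, hg⟩ | ⟨g, hg⟩
    · exact Or.inl ⟨g, hg.symm⟩
    · exact Or.inr ⟨g, hg.symm⟩
  · intro a b h
    obtain ⟨g, ⟨h3, h4⟩ | ⟨h3, h4⟩⟩ := AmTree.edge φ h
    · exact Or.inl ⟨g, h3.symm, h4.symm⟩
    · exact Or.inr ⟨g, h3.symm, h4.symm⟩
  · intro l u
    rw [AmTree.inter φ hφ]
    exact ⟨_, rfl⟩
  · intro l m u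
    rw [map_mul e.symm, hmul, map_mul (base φ), hact]
  · intro l hl u
    have h3 : (l : PushoutI φ) ∈ (base φ).range := by
      rw [← AmTree.inter φ hφ]
      exact ⟨l.2, hl⟩
    obtain ⟨c, hc⟩ := h3
    have h4 : e (φ true c) = l := Subtype.ext (by
      rw [AmTree.stabEquiv_coe, of_apply_eq_base, hc])
    have h5 : e.symm l = φ true c := by rw [← h4, MulEquiv.symm_apply_apply]
    constructor
    · rw [hact, h5]
      exact (hA c u).1
    · change base φ (β (e.symm l) u) = l
      rw [h5, (hA c u).2, hc]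

/-- **Amalgams over a virtual retract of one side**: `ρ` is a homomorphism of a subgroup `L` of
finite index to the base group, and every coset of `L` has a representative `y` with
`ρ (y⁻¹ c y) = c` for all `c` in the base group. -/
theorem vr_retract (hV : VR1.{max u v, max u v, v}) (hφ : ∀ i, Function.Injective (φ i))
    (L : Subgroup (G true)) [L.FiniteIndex] (ρ : L →* H)
    (hr : ∀ x : G true, ∃ l ∈ L, ∀ c, ∃ h : (x * l)⁻¹ * φ true c * (x * l) ∈ L, ρ ⟨_, h⟩ = c)
    (h1 : L1Bass (G true)) (h2 : L1Bass (G false)) : L1Bass (PushoutI φ) := by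
  obtain ⟨F, _, _, _, β, h3, h4⟩ := VrSys.sys_retract (φ true) L ρ hr
  exact vr_am hV hφ F β h3 h4 h1 h2

/-- **Amalgams over a group detected by a finitely generated abelian quotient of one side.** -/
theorem vr_abelian (hV : VR1.{max u v, max u v, v}) (hφ : ∀ i, Function.Injective (φ i))
    {K : Type w} [AddCommGroup K] [Module.Finite ℤ K] (χ : G true →* Multiplicative K)
    (hχ : Function.Injective (χ.comp (φ true)))
    (h1 : L1Bass (G true)) (h2 : L1Bass (G false)) : L1Bass (PushoutI φ) := by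
  obtain ⟨F, _, _, _, β, h3, h4⟩ := VrSys.sys_abelian (φ true) χ hχ
  exact vr_am hV hφ F β h3 h4 h1 h2

end Vale.Agent.P184.H11.VrAm
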