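import Vale.Agent.P184.H11.NiceVa
import Vale.Agent.P184.H290.TSep
import Vale.Agent.P184.H113.RwVa
import Vale.Agent.P184.H856.LocMain
import Vale.Agent.P184.H788.ProdN

/-!
# P184: restricted wreath products with abelian-by-finite base
-/

namespace Vale.Agent.P184.H11.WVa

open Vale.Agent.P184 Vale.Agent.P184.H977 Vale.Agent.P184.H788

universe u v w

/-- **Wreath products of abelian-by-finite groups by arbitrary groups.** -/
theorem wreath_va {S : Type w} {B : Type u} {Q : Type v} [Group S] [Group B] [Group Q]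
    (A : Subgroup B) [A.FiniteIndex] (hA : ∀ x ∈ A, ∀ y ∈ A, x * y = y * x) :
    L1Bass (S × RW B Q) ↔ L1Bass (S × Q) := by
  refine ⟨fun h => H11.l1Bass_retract inclS projS (fun _ => rfl) h, fun h => ?_⟩
  have hS : L1Bass S := H11.l1Bass_retract (MonoidHom.inl S Q) (MonoidHom.fst S Q)
    (fun _ => rfl) h
  refine H856.Loc.wreath_of h fun s hs k => ?_
  have hf : Finite (Subgroup.zpowers s) := hs.finite_zpowers.to_subtype
  refine (bass_prod_locNice fun T => ?_).2 hS
  obtain ⟨N, hN1, hN2, hN3⟩ := H113.rw_va_sub A hA (Subgroup.zpowers s) k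
    (Subgroup.closure (T : Set (RW (Fin k → B) (Subgroup.zpowers s))))
  exact ⟨NiceVa.nice_va N hN3, H290.torSep_va (Group.closure_finset_fg T) N hN3⟩

end Vale.Agent.P184.H11.WVa
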